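import Vale.Agent.P233.H66.Time1

/-!
Time calculus, part 2: differentiable curves of classes in `L¹`, `L²` and in the Sobolev norm.
-/

set_option linter.all false

open MeasureTheory Filter Topology
open scoped ENNReal NNReal

namespace Vale.Agent.P233

variable {M : Type*} [MeasurableSpace M] {m : Measure M} {C : Calc m}

/-- `f' = (d/dt) f` at `t` within `S`, in `L²` -/
structure DL2 (f : ℝ → M →ₘ[m] ℝ) (f' : M →ₘ[m] ℝ) (S : Set ℝ) (t : ℝ) : Prop where
  mem : ∀ r ∈ S, MemLp (f r - f t : M →ₘ[m] ℝ) 2 m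
  mem' : MemLp f' 2 m
  lim : Tendsto (fun r => I (((r - t)⁻¹ • (f r - f t) - f') ^ 2)) (𝓝[S \ {t}] t) (𝓝 0)

/-- `f' = (d/dt) f` at `t` within `S`, in `L¹` -/
structure DL1 (f : ℝ → M →ₘ[m] ℝ) (f' : M →ₘ[m] ℝ) (S : Set ℝ) (t : ℝ) : Prop where
  mem : ∀ r ∈ S, MemLp (f r - f t : M →ₘ[m] ℝ) 1 m
  mem' : MemLp f' 1 m
  lim : Tendsto (fun r => ∫ x, |((r - t)⁻¹ • (f r - f t) - f' : M →ₘ[m] ℝ) x| ∂m)
    (𝓝[S \ {t}] t) (𝓝 0)

/-- `f' = (d/dt) f` at `t` within `S`, in the Sobolev norm -/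
structure Calc.DW (C : Calc m) (f : ℝ → M →ₘ[m] ℝ) (f' : M →ₘ[m] ℝ) (S : Set ℝ) (t : ℝ) :
    Prop where
  mem : ∀ r ∈ S, f r - f t ∈ C.W
  mem' : f' ∈ C.W
  lim : Tendsto (fun r => C.nrm2 ((r - t)⁻¹ • (f r - f t) - f')) (𝓝[S \ {t}] t) (𝓝 0)

/-- admissible sequences of times -/
structure Sq (S : Set ℝ) (t : ℝ) (r : ℕ → ℝ) : Prop where
  mem : ∀ n, r n ∈ S
  ne : ∀ n, r n ≠ t
  lim : Tendsto r atTop (𝓝 t)

theorem Sq.within {S : Set ℝ} {t : ℝ} {r : ℕ → ℝ} (h : Sq S t r) :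
    Tendsto r atTop (𝓝[S \ {t}] t) :=
  tendsto_nhdsWithin_iff.2 ⟨h.lim, Eventually.of_forall fun n => ⟨h.mem n, h.ne n⟩⟩

theorem Sq.ne0 {S : Set ℝ} {t : ℝ} {r : ℕ → ℝ} (h : Sq S t r) (n : ℕ) : r n - t ≠ 0 :=
  sub_ne_zero.2 (h.ne n)

theorem Sq.comp {S : Set ℝ} {t : ℝ} {r : ℕ → ℝ} (h : Sq S t r) {ns : ℕ → ℕ}
    (hns : Tendsto ns atTop atTop) : Sq S t (fun n => r (ns n)) :=
  ⟨fun n => h.mem _, fun n => h.ne _, h.lim.comp hns⟩

theorem Sq.mono {S T : Set ℝ} {t : ℝ} {r : ℕ → ℝ} (h : Sq S t r) (hST : S ⊆ T) : Sq T t r :=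
  ⟨fun n => hST (h.mem n), h.ne, h.lim⟩

/-- reduction of limits within `S \ {t}` to sequences -/
theorem tendsto_of_sq {S : Set ℝ} {t : ℝ} {β : Type*} [TopologicalSpace β] {P : ℝ → β}
    {l : Filter β} (h : ∀ r : ℕ → ℝ, Sq S t r → Tendsto (fun n => P (r n)) atTop l) :
    Tendsto P (𝓝[S \ {t}] t) l := by
  refine tendsto_of_seq_tendsto fun r hr => ?_
  obtain ⟨h1, h2⟩ := tendsto_nhdsWithin_iff.1 hr
  obtain ⟨N, hN⟩ := eventually_atTop.1 h2
  have h3 : Sq S t (fun n => r (n + N)) :=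
    ⟨fun n => (hN _ (by omega)).1, fun n => (hN _ (by omega)).2,
      h1.comp (tendsto_add_atTop_nat N)⟩
  exact (tendsto_add_atTop_iff_nat N).1 (h _ h3)

theorem smul_cancel {c : ℝ} (hc : c ≠ 0) (x : M →ₘ[m] ℝ) : c • (c⁻¹ • x) = x := by
  rw [smul_smul, mul_inv_cancel₀ hc, one_smul]

variable {f g : ℝ → M →ₘ[m] ℝ} {f' g' f'' : M →ₘ[m] ℝ} {S T : Set ℝ} {t : ℝ} {r : ℕ → ℝ}

/-! ### `L²` -/

namespace DL2

theorem seq (h : DL2 f f' S t) (hr : Sq S t r) :
    T2 (fun n => (r n - t)⁻¹ • (f (r n) - f t)) f' :=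
  ⟨fun n => mem_smul _ (h.mem _ (hr.mem n)), h.mem', h.lim.comp hr.within⟩

theorem of_seq (hm : ∀ r ∈ S, MemLp (f r - f t : M →ₘ[m] ℝ) 2 m) (hm' : MemLp f' 2 m)
    (h : ∀ r : ℕ → ℝ, Sq S t r → T2 (fun n => (r n - t)⁻¹ • (f (r n) - f t)) f') :
    DL2 f f' S t := ⟨hm, hm', tendsto_of_sq fun r hr => (h r hr).lim⟩

/-- it is enough to find, for every sequence of times, a subsequence along which the difference
quotients converge -/
theorem of_subseq (hm : ∀ r ∈ S, MemLp (f r - f t : M →ₘ[m] ℝ) 2 m) (hm' : MemLp f' 2 m)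
    (h : ∀ r : ℕ → ℝ, Sq S t r → ∃ ns : ℕ → ℕ, Tendsto ns atTop atTop ∧
      T2 (fun n => (r (ns n) - t)⁻¹ • (f (r (ns n)) - f t)) f') : DL2 f f' S t := by
  refine of_seq hm hm' fun r hr => T2.of_sub (fun n => mem_smul _ (hm _ (hr.mem n))) ?_
  intro ns hns
  obtain ⟨ks, h1, h2⟩ := h _ (hr.comp hns)
  exact ⟨ks, h1, h2⟩

theorem seq_sub (h : DL2 f f' S t) (hr : Sq S t r) : T2 (fun n => f (r n) - f t) 0 := by
  have h1 : Tendsto (fun n => r n - t) atTop (𝓝 0) := by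
    simpa using hr.lim.sub_const t
  have h2 := T2.smul_lim h1 (h.seq hr)
  simp only [zero_smul] at h2
  have e : (fun n => (r n - t) • ((r n - t)⁻¹ • (f (r n) - f t))) = fun n => f (r n) - f t := by
    funext n; exact smul_cancel (hr.ne0 n) _
  rwa [e] at h2

/-- continuity -/
theorem cont (h : DL2 f f' S t) : Tendsto (fun r => I ((f r - f t) ^ 2)) (𝓝[S] t) (𝓝 0) := by
  have h1 : Tendsto (fun r => I ((f r - f t) ^ 2)) (𝓝[S \ {t}] t) (𝓝 0) :=
    tendsto_of_sq fun r hr => by simpa using (h.seq_sub hr).lim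
  have h2 : Tendsto (fun r => I ((f r - f t) ^ 2)) (pure t) (𝓝 0) := by
    rw [tendsto_pure_left]
    intro s hs
    have : I ((f t - f t) ^ 2) = 0 := by
      have e : (f t - f t) ^ 2 = 0 := by ring
      rw [e, I_zero]
    rw [this]; exact mem_of_mem_nhds hs
  have h3 : 𝓝[S] t ≤ 𝓝[S \ {t}] t ⊔ pure t := by
    have : S ⊆ S \ {t} ∪ {t} := fun x hx => by
      by_cases hxt : x = t
      · exact Or.inr hxt
      · exact Or.inl ⟨hx, hxt⟩
    refine (nhdsWithin_mono t this).trans ?_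
    rw [nhdsWithin_union, nhdsWithin_singleton]
  exact (h1.sup h2).mono_left h3

theorem mono (h : DL2 f f' T t) (hST : S ⊆ T) : DL2 f f' S t :=
  ⟨fun r hr => h.mem r (hST hr), h.mem',
    h.lim.mono_left (nhdsWithin_mono _ (Set.diff_subset_diff_left hST))⟩

theorem congr (h : DL2 f f' S t) (hg : ∀ r ∈ S, g r = f r) (hgt : g t = f t) : DL2 g f' S t := by
  refine ⟨fun r hr => by rw [hg r hr, hgt]; exact h.mem r hr, h.mem', ?_⟩
  refine h.lim.congr' ?_
  filter_upwards [self_mem_nhdsWithin] with r hr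
  rw [hg r hr.1, hgt]

theorem const (c : M →ₘ[m] ℝ) : DL2 (fun _ => c) 0 S t := by
  have e : c - c = 0 := sub_self c
  refine ⟨fun r _ => by rw [e]; exact mem_zero, mem_zero, ?_⟩
  have : ∀ r : ℝ, I (((r - t)⁻¹ • (c - c) - 0 : M →ₘ[m] ℝ) ^ 2) = 0 := fun r => by
    rw [e, smul_zero, sub_zero]
    have : (0 : M →ₘ[m] ℝ) ^ 2 = 0 := by ring
    rw [this, I_zero]
  simp only [this]
  exact tendsto_const_nhds

theorem add (h1 : DL2 f f' S t) (h2 : DL2 g g' S t) :
    DL2 (fun r => f r + g r) (f' + g') S t := by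
  have e : ∀ r, f r + g r - (f t + g t) = (f r - f t) + (g r - g t) := fun r => by ring
  refine of_seq (fun r hr => ?_) (mem_add h1.mem' h2.mem') fun r hr => ?_
  · rw [e]; exact mem_add (h1.mem r hr) (h2.mem r hr)
  · have := (h1.seq hr).add (h2.seq hr)
    simp only [← smul_add, ← e] at this
    exact this

theorem smul (c : ℝ) (h1 : DL2 f f' S t) : DL2 (fun r => c • f r) (c • f') S t := by
  have e : ∀ r, c • f r - c • f t = c • (f r - f t) := fun r => by rw [smul_sub]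
  refine of_seq (fun r hr => ?_) (mem_smul _ h1.mem') fun r hr => ?_
  · rw [e]; exact mem_smul _ (h1.mem r hr)
  · have := (h1.seq hr).smul c
    simp only [smul_comm c, ← e] at this
    exact this

theorem neg (h1 : DL2 f f' S t) : DL2 (fun r => -f r) (-f') S t := by
  have := h1.smul (-1)
  simpa using this

theorem sub (h1 : DL2 f f' S t) (h2 : DL2 g g' S t) :
    DL2 (fun r => f r - g r) (f' - g') S t := by
  simpa [sub_eq_add_neg] using h1.add h2.neg

theorem add_const (h1 : DL2 f f' S t) (c : M →ₘ[m] ℝ) : DL2 (fun r => f r + c) f' S t := by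
  simpa using h1.add (DL2.const c)

theorem const_add (h1 : DL2 f f' S t) (c : M →ₘ[m] ℝ) : DL2 (fun r => c + f r) f' S t := by
  simpa using (DL2.const c).add h1

/-- a real function times a fixed element of `L²` -/
theorem real_smul {c : ℝ → ℝ} {c' : ℝ} (hc : HasDerivWithinAt c c' S t) {w : M →ₘ[m] ℝ}
    (hw : MemLp w 2 m) : DL2 (fun r => c r • w) (c' • w) S t := by
  have e : ∀ r, c r • w - c t • w = (c r - c t) • w := fun r => by rw [sub_smul]
  refine of_seq (fun r hr => ?_) (mem_smul _ hw) fun r hr => ?_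
  · rw [e]; exact mem_smul _ hw
  · have h1 : Tendsto (fun n => (r n - t)⁻¹ * (c (r n) - c t)) atTop (𝓝 c') := by
      have := (hasDerivWithinAt_iff_tendsto_slope.1 hc).comp hr.within
      simpa [slope_def_field, div_eq_inv_mul, Function.comp_def] using this
    have := T2.smul_lim h1 (T2.const hw)
    simp only [mul_smul, ← e] at this
    exact this

/-- change of time by an affine map -/
theorem comp_affine (h : DL2 f f' S t) {a b t' : ℝ} (ha : a ≠ 0) (ht : a * t' + b = t) :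
    DL2 (fun r => f (a * r + b)) (a • f') ((fun r => a * r + b) ⁻¹' S) t' := by
  subst ht
  refine of_seq (fun r hr => h.mem _ hr) (mem_smul _ h.mem') fun r hr => ?_
  have h1 : Sq S (a * t' + b) (fun n => a * r n + b) :=
    ⟨fun n => hr.mem n, fun n hn => hr.ne n (by
      have : a * (r n - t') = 0 := by linarith
      rcases mul_eq_zero.1 this with h | h
      · exact absurd h ha
      · linarith), (hr.lim.const_mul a).add_const b⟩
  have := (h.seq h1).smul a
  refine ⟨fun n => ?_, this.mem', ?_⟩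
  · exact mem_smul _ (h.mem _ (hr.mem n))
  · refine this.lim.congr fun n => ?_
    have e : a • ((a * r n + b - (a * t' + b))⁻¹ • (f (a * r n + b) - f (a * t' + b)))
        = (r n - t')⁻¹ • (f (a * r n + b) - f (a * t' + b)) := by
      have h5 : a * r n + b - (a * t' + b) = a * (r n - t') := by ring
      rw [smul_smul, h5, mul_inv, ← mul_assoc, mul_inv_cancel₀ ha, one_mul]
    rw [e]

end DL2

/-! ### `L¹` -/

namespace DL1

theorem seq (h : DL1 f f' S t) (hr : Sq S t r) :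
    T1 (fun n => (r n - t)⁻¹ • (f (r n) - f t)) f' :=
  ⟨fun n => mem_smul _ (h.mem _ (hr.mem n)), h.mem', h.lim.comp hr.within⟩

theorem of_seq (hm : ∀ r ∈ S, MemLp (f r - f t : M →ₘ[m] ℝ) 1 m) (hm' : MemLp f' 1 m)
    (h : ∀ r : ℕ → ℝ, Sq S t r → T1 (fun n => (r n - t)⁻¹ • (f (r n) - f t)) f') :
    DL1 f f' S t := ⟨hm, hm', tendsto_of_sq fun r hr => (h r hr).lim⟩

theorem of_subseq (hm : ∀ r ∈ S, MemLp (f r - f t : M →ₘ[m] ℝ) 1 m) (hm' : MemLp f' 1 m)
    (h : ∀ r : ℕ → ℝ, Sq S t r → ∃ ns : ℕ → ℕ, Tendsto ns atTop atTop ∧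
      T1 (fun n => (r (ns n) - t)⁻¹ • (f (r (ns n)) - f t)) f') : DL1 f f' S t := by
  refine of_seq hm hm' fun r hr => T1.of_sub (fun n => mem_smul _ (hm _ (hr.mem n))) ?_
  intro ns hns
  obtain ⟨ks, h1, h2⟩ := h _ (hr.comp hns)
  exact ⟨ks, h1, h2⟩

theorem seq_sub (h : DL1 f f' S t) (hr : Sq S t r) : T1 (fun n => f (r n) - f t) 0 := by
  have h1 : Tendsto (fun n => r n - t) atTop (𝓝 0) := by
    simpa using hr.lim.sub_const t
  have h2 := T1.smul_lim h1 (h.seq hr)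
  simp only [zero_smul] at h2
  have e : (fun n => (r n - t) • ((r n - t)⁻¹ • (f (r n) - f t))) = fun n => f (r n) - f t := by
    funext n; exact smul_cancel (hr.ne0 n) _
  rwa [e] at h2

theorem mono (h : DL1 f f' T t) (hST : S ⊆ T) : DL1 f f' S t :=
  ⟨fun r hr => h.mem r (hST hr), h.mem',
    h.lim.mono_left (nhdsWithin_mono _ (Set.diff_subset_diff_left hST))⟩

theorem congr (h : DL1 f f' S t) (hg : ∀ r ∈ S, g r = f r) (hgt : g t = f t) : DL1 g f' S t := by
  refine ⟨fun r hr => by rw [hg r hr, hgt]; exact h.mem r hr, h.mem', ?_⟩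
  refine h.lim.congr' ?_
  filter_upwards [self_mem_nhdsWithin] with r hr
  rw [hg r hr.1, hgt]

theorem const (c : M →ₘ[m] ℝ) : DL1 (fun _ => c) 0 S t := by
  have e : c - c = 0 := sub_self c
  refine ⟨fun r _ => by rw [e]; exact mem_zero, mem_zero, ?_⟩
  have : ∀ r : ℝ, ∫ x, |((r - t)⁻¹ • (c - c) - 0 : M →ₘ[m] ℝ) x| ∂m = 0 := fun r => by
    rw [e, smul_zero, sub_zero]
    have e0 : (0 : M →ₘ[m] ℝ) = (0 : ℝ) • (0 : M →ₘ[m] ℝ) := by simp
    rw [e0, intabs_smul]; simp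
  simp only [this]
  exact tendsto_const_nhds

theorem add (h1 : DL1 f f' S t) (h2 : DL1 g g' S t) :
    DL1 (fun r => f r + g r) (f' + g') S t := by
  have e : ∀ r, f r + g r - (f t + g t) = (f r - f t) + (g r - g t) := fun r => by ring
  refine of_seq (fun r hr => ?_) (mem_add h1.mem' h2.mem') fun r hr => ?_
  · rw [e]; exact mem_add (h1.mem r hr) (h2.mem r hr)
  · have := (h1.seq hr).add (h2.seq hr)
    simp only [← smul_add, ← e] at this
    exact this

theorem smul (c : ℝ) (h1 : DL1 f f' S t) : DL1 (fun r => c • f r) (c • f') S t := by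
  have e : ∀ r, c • f r - c • f t = c • (f r - f t) := fun r => by rw [smul_sub]
  refine of_seq (fun r hr => ?_) (mem_smul _ h1.mem') fun r hr => ?_
  · rw [e]; exact mem_smul _ (h1.mem r hr)
  · have := (h1.seq hr).smul c
    simp only [smul_comm c, ← e] at this
    exact this

theorem neg (h1 : DL1 f f' S t) : DL1 (fun r => -f r) (-f') S t := by
  have := h1.smul (-1)
  simpa using this

theorem sub (h1 : DL1 f f' S t) (h2 : DL1 g g' S t) :
    DL1 (fun r => f r - g r) (f' - g') S t := by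
  simpa [sub_eq_add_neg] using h1.add h2.neg

/-- the integral of a differentiable curve -/
theorem I_hasDeriv (h : DL1 f f' S t) (hm : ∀ r ∈ S, MemLp (f r) 1 m) (ht : MemLp (f t) 1 m) :
    HasDerivWithinAt (fun r => I (f r)) (I f') S t := by
  rw [hasDerivWithinAt_iff_tendsto_slope]
  refine tendsto_of_sq fun r hr => ?_
  refine (h.seq hr).I_lim.congr fun n => ?_
  rw [I_smul, I_sub (hm _ (hr.mem n)) ht, slope_def_field, div_eq_inv_mul]

/-- the same if only the differences are integrable -/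
theorem I_sub_hasDeriv (h : DL1 f f' S t) :
    HasDerivWithinAt (fun r => I (f r - f t)) (I f') S t := by
  rw [hasDerivWithinAt_iff_tendsto_slope]
  refine tendsto_of_sq fun r hr => ?_
  refine (h.seq hr).I_lim.congr fun n => ?_
  rw [I_smul, slope_def_field, sub_self, I_zero, sub_zero, div_eq_inv_mul]

end DL1

/-! ### the Sobolev norm -/

namespace IsDir

theorem DW_seq (hC : IsDir C) (h : C.DW f f' S t) (hr : Sq S t r) :
    C.TW (fun n => (r n - t)⁻¹ • (f (r n) - f t)) f' :=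
  ⟨fun n => hC.smul_mem _ _ (h.mem _ (hr.mem n)), h.mem', h.lim.comp hr.within⟩

theorem DW_of_seq (hC : IsDir C) (hm : ∀ r ∈ S, f r - f t ∈ C.W) (hm' : f' ∈ C.W)
    (h : ∀ r : ℕ → ℝ, Sq S t r → C.TW (fun n => (r n - t)⁻¹ • (f (r n) - f t)) f') :
    C.DW f f' S t := ⟨hm, hm', tendsto_of_sq fun r hr => (h r hr).lim⟩

theorem DW_of_subseq (hC : IsDir C) (hm : ∀ r ∈ S, f r - f t ∈ C.W) (hm' : f' ∈ C.W)
    (h : ∀ r : ℕ → ℝ, Sq S t r → ∃ ns : ℕ → ℕ, Tendsto ns atTop atTop ∧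
      C.TW (fun n => (r (ns n) - t)⁻¹ • (f (r (ns n)) - f t)) f') : C.DW f f' S t := by
  refine hC.DW_of_seq hm hm' fun r hr =>
    TW_of_sub (fun n => hC.smul_mem _ _ (hm _ (hr.mem n))) ?_
  intro ns hns
  obtain ⟨ks, h1, h2⟩ := h _ (hr.comp hns)
  exact ⟨ks, h1, h2⟩

theorem DW_seq_sub (hC : IsDir C) (h : C.DW f f' S t) (hr : Sq S t r) :
    C.TW (fun n => f (r n) - f t) 0 := by
  have h1 : Tendsto (fun n => r n - t) atTop (𝓝 0) := by
    simpa using hr.lim.sub_const t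
  have h2 := hC.TW_smul_lim h1 (hC.DW_seq h hr)
  simp only [zero_smul] at h2
  have e : (fun n => (r n - t) • ((r n - t)⁻¹ • (f (r n) - f t))) = fun n => f (r n) - f t := by
    funext n; exact smul_cancel (hr.ne0 n) _
  rwa [e] at h2

theorem DW_DL2 (hC : IsDir C) (h : C.DW f f' S t) : DL2 f f' S t :=
  DL2.of_seq (fun r hr => hC.memLp _ (h.mem r hr)) (hC.memLp _ h.mem')
    fun r hr => hC.TW_T2 (hC.DW_seq h hr)

theorem DW_mono (h : C.DW f f' T t) (hST : S ⊆ T) : C.DW f f' S t :=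
  ⟨fun r hr => h.mem r (hST hr), h.mem',
    h.lim.mono_left (nhdsWithin_mono _ (Set.diff_subset_diff_left hST))⟩

theorem DW_congr (h : C.DW f f' S t) (hg : ∀ r ∈ S, g r = f r) (hgt : g t = f t) :
    C.DW g f' S t := by
  refine ⟨fun r hr => by rw [hg r hr, hgt]; exact h.mem r hr, h.mem', ?_⟩
  refine h.lim.congr' ?_
  filter_upwards [self_mem_nhdsWithin] with r hr
  rw [hg r hr.1, hgt]

theorem DW_const (hC : IsDir C) (c : M →ₘ[m] ℝ) : C.DW (fun _ => c) 0 S t := by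
  have e : c - c = 0 := sub_self c
  refine hC.DW_of_seq (fun r _ => by rw [e]; exact hC.zero_mem) hC.zero_mem fun r hr => ?_
  simp only [e, smul_zero]
  exact hC.TW_const hC.zero_mem

theorem DW_add (hC : IsDir C) (h1 : C.DW f f' S t) (h2 : C.DW g g' S t) :
    C.DW (fun r => f r + g r) (f' + g') S t := by
  have e : ∀ r, f r + g r - (f t + g t) = (f r - f t) + (g r - g t) := fun r => by ring
  refine hC.DW_of_seq (fun r hr => ?_) (hC.add_mem _ h1.mem' _ h2.mem') fun r hr => ?_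
  · rw [e]; exact hC.add_mem _ (h1.mem r hr) _ (h2.mem r hr)
  · have := hC.TW_add (hC.DW_seq h1 hr) (hC.DW_seq h2 hr)
    simp only [← smul_add, ← e] at this
    exact this

theorem DW_smul (hC : IsDir C) (c : ℝ) (h1 : C.DW f f' S t) :
    C.DW (fun r => c • f r) (c • f') S t := by
  have e : ∀ r, c • f r - c • f t = c • (f r - f t) := fun r => by rw [smul_sub]
  refine hC.DW_of_seq (fun r hr => ?_) (hC.smul_mem _ _ h1.mem') fun r hr => ?_
  · rw [e]; exact hC.smul_mem _ _ (h1.mem r hr)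
  · have := hC.TW_smul c (hC.DW_seq h1 hr)
    simp only [smul_comm c, ← e] at this
    exact this

theorem DW_neg (hC : IsDir C) (h1 : C.DW f f' S t) : C.DW (fun r => -f r) (-f') S t := by
  have := hC.DW_smul (-1) h1
  simpa using this

theorem DW_sub (hC : IsDir C) (h1 : C.DW f f' S t) (h2 : C.DW g g' S t) :
    C.DW (fun r => f r - g r) (f' - g') S t := by
  simpa [sub_eq_add_neg] using hC.DW_add h1 (hC.DW_neg h2)

/-- a real function times a fixed element of `W` -/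
theorem DW_real_smul (hC : IsDir C) {c : ℝ → ℝ} {c' : ℝ} (hc : HasDerivWithinAt c c' S t)
    {w : M →ₘ[m] ℝ} (hw : w ∈ C.W) : C.DW (fun r => c r • w) (c' • w) S t := by
  have e : ∀ r, c r • w - c t • w = (c r - c t) • w := fun r => by rw [sub_smul]
  refine hC.DW_of_seq (fun r hr => ?_) (hC.smul_mem _ _ hw) fun r hr => ?_
  · rw [e]; exact hC.smul_mem _ _ hw
  · have h1 : Tendsto (fun n => (r n - t)⁻¹ * (c (r n) - c t)) atTop (𝓝 c') := by
      have := (hasDerivWithinAt_iff_tendsto_slope.1 hc).comp hr.within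
      simpa [slope_def_field, div_eq_inv_mul, Function.comp_def] using this
    have := hC.TW_smul_lim h1 (hC.TW_const hw)
    simp only [mul_smul, ← e] at this
    exact this

end IsDir

end Vale.Agent.P233
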