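import Vale.Agent.P233.H66.Time2

/-!
Time calculus, part 3: products, the carre du champ, and mixed integrals.
-/

set_option linter.all false

open MeasureTheory Filter Topology
open scoped ENNReal NNReal

namespace Vale.Agent.P233

variable {M : Type*} [MeasurableSpace M] {m : Measure M} {C : Calc m}

/-- uniformly bounded curves -/
def BdS (f : ℝ → M →ₘ[m] ℝ) (S : Set ℝ) : Prop := ∃ K : ℝ, ∀ r ∈ S, ∀ᵐ x ∂m, |f r x| ≤ K

/-- curves with uniformly bounded gradients -/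
def Calc.BdG (C : Calc m) (f : ℝ → M →ₘ[m] ℝ) (S : Set ℝ) : Prop :=
  ∃ K : ℝ, ∀ r ∈ S, ∀ᵐ x ∂m, C.Γ (f r) (f r) x ≤ K

variable {f g : ℝ → M →ₘ[m] ℝ} {f' g' w : M →ₘ[m] ℝ} {S T : Set ℝ} {t : ℝ} {r : ℕ → ℝ}

theorem BdS.top (h : BdS f S) {r : ℝ} (hr : r ∈ S) : MemLp (f r) ∞ m := by
  obtain ⟨K, hK⟩ := h
  exact mem_top_iff.2 ⟨K, hK r hr⟩

theorem BdS.mono (h : BdS f T) (hST : S ⊆ T) : BdS f S := by
  obtain ⟨K, hK⟩ := h
  exact ⟨K, fun r hr => hK r (hST hr)⟩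

theorem BdS.const (hw : MemLp w ∞ m) : BdS (fun _ => w) S := by
  obtain ⟨K, hK⟩ := mem_top_iff.1 hw
  exact ⟨K, fun r _ => hK⟩

theorem BdS.add (hf : BdS f S) (hg : BdS g S) : BdS (fun r => f r + g r) S := by
  obtain ⟨K, hK⟩ := hf
  obtain ⟨L, hL⟩ := hg
  refine ⟨K + L, fun r hr => ?_⟩
  filter_upwards [hK r hr, hL r hr, add_ae (f r) (g r)] with x h1 h2 h3
  rw [h3]
  exact (abs_add_le _ _).trans (add_le_add h1 h2)

theorem BdS.smul (c : ℝ) (hf : BdS f S) : BdS (fun r => c • f r) S := by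
  obtain ⟨K, hK⟩ := hf
  refine ⟨|c| * K, fun r hr => ?_⟩
  filter_upwards [hK r hr, smul_ae (f r) c] with x h1 h3
  rw [h3, abs_mul]
  exact mul_le_mul_of_nonneg_left h1 (abs_nonneg _)

theorem BdS.sub (hf : BdS f S) (hg : BdS g S) : BdS (fun r => f r - g r) S := by
  have := hf.add (hg.smul (-1))
  simpa [sub_eq_add_neg] using this

theorem BdS.mul (hf : BdS f S) (hg : BdS g S) : BdS (fun r => f r * g r) S := by
  obtain ⟨K, hK⟩ := hf
  obtain ⟨L, hL⟩ := hg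
  refine ⟨|K| * |L|, fun r hr => ?_⟩
  filter_upwards [hK r hr, hL r hr, mul_ae (f r) (g r)] with x h1 h2 h3
  rw [h3, abs_mul]
  exact mul_le_mul (h1.trans (le_abs_self _)) (h2.trans (le_abs_self _)) (abs_nonneg _)
    (abs_nonneg _)

/-- a bounded curve, continuous in `L²`, along a sequence -/
theorem DL2.tm (h : DL2 f f' S t) (hb : BdS f S) (hr : Sq S t r) :
    Tm (fun n => f (r n)) (f t) := by
  obtain ⟨K, hK⟩ := hb
  exact Tm.of_L2 ⟨K, fun n => hK _ (hr.mem n)⟩ (fun n => h.mem _ (hr.mem n))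
    (by simpa using (h.seq_sub hr).lim)

theorem DL2.mem_all (h : DL2 f f' S t) (ht : MemLp (f t) 2 m) : ∀ r ∈ S, MemLp (f r) 2 m :=
  fun r hr => by
    have := mem_add (h.mem r hr) ht
    simpa using this

theorem DL1.mem_all (h : DL1 f f' S t) (ht : MemLp (f t) 1 m) : ∀ r ∈ S, MemLp (f r) 1 m :=
  fun r hr => by
    have := mem_add (h.mem r hr) ht
    simpa using this

theorem DL2.t2 (h : DL2 f f' S t) (ht : MemLp (f t) 2 m) (hr : Sq S t r) :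
    T2 (fun n => f (r n)) (f t) := by
  have := (h.seq_sub hr).add (T2.const ht)
  simpa using this

theorem DL1.t1 (h : DL1 f f' S t) (ht : MemLp (f t) 1 m) (hr : Sq S t r) :
    T1 (fun n => f (r n)) (f t) := by
  have := (h.seq_sub hr).add (T1.const ht)
  simpa using this

/-- the difference quotient of a product -/
theorem dq_mul (c : ℝ) (a a' b b' : M →ₘ[m] ℝ) :
    c • (a * b - a' * b') = (c • (a - a')) * b + a' * (c • (b - b')) := by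
  rw [smul_mul_assoc, mul_smul_comm, ← smul_add]
  congr 1
  ring

/-- `L²` times `L²` -/
theorem DL2.mul_L1 (h1 : DL2 f f' S t) (h2 : DL2 g g' S t) (hf : MemLp (f t) 2 m)
    (hg : MemLp (g t) 2 m) : DL1 (fun r => f r * g r) (f' * g t + f t * g') S t := by
  refine DL1.of_seq (fun r hr => ?_) (mem_add (mem_mul_22 h1.mem' hg) (mem_mul_22 hf h2.mem'))
    fun r hr => ?_
  · exact mem_sub (mem_mul_22 (h1.mem_all hf r hr) (h2.mem_all hg r hr)) (mem_mul_22 hf hg)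
  · have := ((h1.seq hr).mul (h2.t2 hg hr)).add ((T2.const hf).mul (h2.seq hr))
    simp only [← dq_mul] at this
    exact this

/-- product of two bounded curves, differentiable in `L²` -/
theorem DL2.mul (h1 : DL2 f f' S t) (h2 : DL2 g g' S t) (ht : t ∈ S) (hf : BdS f S)
    (hg : BdS g S) : DL2 (fun r => f r * g r) (f' * g t + f t * g') S t := by
  refine DL2.of_seq (fun r hr => ?_) (mem_add (mem_top_mul h1.mem' (hg.top ht))
    (mem_mul_top (hf.top ht) h2.mem')) fun r hr => ?_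
  · have e : f r * g r - f t * g t = (f r - f t) * g r + f t * (g r - g t) := by ring
    rw [e]
    exact mem_add (mem_top_mul (h1.mem r hr) (hg.top hr)) (mem_mul_top (hf.top ht) (h2.mem r hr))
  · have a1 : T2 (fun n => ((r n - t)⁻¹ • (f (r n) - f t)) * g (r n)) (f' * g t) := by
      have := (h2.tm hg hr).mul (h1.seq hr)
      simpa only [mul_comm] using this
    have := a1.add ((Tm.const (hf.top ht)).mul (h2.seq hr))
    simp only [← dq_mul] at this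
    exact this

/-- multiplication by a fixed bounded function -/
theorem DL2.const_mul (h : DL2 f f' S t) (hw : MemLp w ∞ m) :
    DL2 (fun r => w * f r) (w * f') S t := by
  have e : ∀ r, w * f r - w * f t = w * (f r - f t) := fun r => by ring
  refine DL2.of_seq (fun r hr => ?_) (mem_mul_top hw h.mem') fun r hr => ?_
  · rw [e]; exact mem_mul_top hw (h.mem r hr)
  · have := (Tm.const hw).mul (h.seq hr)
    simp only [mul_smul_comm, ← e] at this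
    exact this

theorem DL1.const_mul (h : DL1 f f' S t) (hw : MemLp w ∞ m) :
    DL1 (fun r => w * f r) (w * f') S t := by
  have e : ∀ r, w * f r - w * f t = w * (f r - f t) := fun r => by ring
  refine DL1.of_seq (fun r hr => ?_) (mem_mul_top hw h.mem') fun r hr => ?_
  · rw [e]; exact mem_mul_top hw (h.mem r hr)
  · have := (Tm.const hw).mul1 (h.seq hr)
    simp only [mul_smul_comm, ← e] at this
    exact this

/-- multiplication by a fixed `L²` function -/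
theorem DL2.const_mul1 (h : DL2 f f' S t) (hw : MemLp w 2 m) :
    DL1 (fun r => w * f r) (w * f') S t := by
  have e : ∀ r, w * f r - w * f t = w * (f r - f t) := fun r => by ring
  refine DL1.of_seq (fun r hr => ?_) (mem_mul_22 hw h.mem') fun r hr => ?_
  · rw [e]; exact mem_mul_22 hw (h.mem r hr)
  · have := (T2.const hw).mul (h.seq hr)
    simp only [mul_smul_comm, ← e] at this
    exact this

/-- a curve differentiable in `L²` (not necessarily bounded near `t`, but bounded at `t`) times a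
curve that is differentiable in `L¹` and continuous in `L²` -/
theorem DL2.mul_DL1 (h1 : DL2 f f' S t) (hft : MemLp (f t) ∞ m) (h2 : DL1 g g' S t)
    (hg : MemLp (g t) 2 m) (hg2 : ∀ r : ℕ → ℝ, Sq S t r → T2 (fun n => g (r n)) (g t))
    (hgm : ∀ r ∈ S, MemLp (g r - g t : M →ₘ[m] ℝ) 2 m) :
    DL1 (fun r => f r * g r) (f' * g t + f t * g') S t := by
  refine DL1.of_seq (fun r hr => ?_) (mem_add (mem_mul_22 h1.mem' hg) (mem_mul_top hft h2.mem'))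
    fun r hr => ?_
  · have e : f r * g r - f t * g t = (f r - f t) * (g r - g t) + (f r - f t) * g t
        + f t * (g r - g t) := by ring
    rw [e]
    exact mem_add (mem_add (mem_mul_22 (h1.mem r hr) (hgm r hr)) (mem_mul_22 (h1.mem r hr) hg))
      (mem_mul_top hft (h2.mem r hr))
  · have := ((h1.seq hr).mul (hg2 r hr)).add ((Tm.const hft).mul1 (h2.seq hr))
    simp only [← dq_mul] at this
    exact this

/-- bounded and convergent in `L¹` implies convergent in `L²` -/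
theorem T1.t2_of_bdd {X : ℕ → M →ₘ[m] ℝ} {x : M →ₘ[m] ℝ} (h : T1 X x)
    (hb : ∃ K : ℝ, ∀ n, ∀ᵐ y ∂m, |X n y| ≤ K) (hx : ∃ K : ℝ, ∀ᵐ y ∂m, |x y| ≤ K) : T2 X x := by
  obtain ⟨K, hK⟩ := hb
  obtain ⟨L, hL⟩ := hx
  have key : ∀ {F : M →ₘ[m] ℝ} {B : ℝ}, MemLp F 1 m → (∀ᵐ y ∂m, |F y| ≤ B) →
      MemLp F 2 m ∧ I (F ^ 2) ≤ |B| * ∫ y, |F y| ∂m := by
    intro F B hF hB
    have m1 : MemLp (F ^ 2 : M →ₘ[m] ℝ) 1 m := by
      rw [sq]; exact mem_mul_top (mem_top_iff.2 ⟨B, hB⟩) hF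
    refine ⟨memLp_two_of_sq m1, ?_⟩
    rw [← integral_const_mul]
    refine integral_mono_ae (int_of_mem m1) ((int_of_mem hF).abs.const_mul _) ?_
    filter_upwards [sq_ae F, hB] with y e1 e2
    simp only [e1]
    rw [← sq_abs, sq]
    exact mul_le_mul_of_nonneg_right (e2.trans (le_abs_self _)) (abs_nonneg _)
  have hd : ∀ n, ∀ᵐ y ∂m, |(X n - x : M →ₘ[m] ℝ) y| ≤ K + L := fun n => by
    filter_upwards [sub_ae (X n) x, hK n, hL] with y e1 e2 e3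
    rw [e1]
    exact (abs_sub _ _).trans (add_le_add e2 e3)
  refine ⟨fun n => (key (h.mem n) (hK n)).1, (key h.mem' hL).1, ?_⟩
  refine squeeze_zero (fun n => I_sq_nonneg _)
    (fun n => (key (mem_sub (h.mem n) h.mem') (hd n)).2) ?_
  simpa using h.lim.const_mul |K + L|

/-- a bounded curve differentiable in `L²` times a bounded curve differentiable in `L¹` -/
theorem DL2.mul_DL1_bdd (h1 : DL2 f f' S t) (ht : t ∈ S) (hf : MemLp (f t) ∞ m)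
    (h2 : DL1 g g' S t) (hg : BdS g S) (hgt : MemLp (g t) 1 m) :
    DL1 (fun r => f r * g r) (f' * g t + f t * g') S t := by
  obtain ⟨K, hK⟩ := id hg
  have c : ∀ {F : M →ₘ[m] ℝ}, MemLp F 1 m → MemLp F ∞ m → MemLp F 2 m := by
    intro F h3 h4
    refine memLp_two_of_sq ?_
    rw [sq]; exact mem_mul_top h4 h3
  refine h1.mul_DL1 hf h2 (c hgt (hg.top ht)) (fun r hr => ?_) (fun r hr => ?_)
  · exact (h2.t1 hgt hr).t2_of_bdd ⟨K, fun n => hK _ (hr.mem n)⟩ ⟨K, hK t ht⟩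
  · exact c (h2.mem r hr) (mem_sub (hg.top hr) (hg.top ht))

namespace IsDir

variable (hC : IsDir C)
include hC
variable {X Y : ℕ → M →ₘ[m] ℝ} {x y h k : M →ₘ[m] ℝ}

theorem DW_mem_all (h1 : C.DW f f' S t) (ht : f t ∈ C.W) : ∀ r ∈ S, f r ∈ C.W := fun r hr => by
  have := hC.add_mem _ (h1.mem r hr) _ ht
  simpa using this

theorem DW_tw (h1 : C.DW f f' S t) (ht : f t ∈ C.W) (hr : Sq S t r) :
    C.TW (fun n => f (r n)) (f t) := by
  have := hC.TW_add (hC.DW_seq_sub h1 hr) (hC.TW_const ht)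
  simpa using this

/-- the difference quotient of `Γ` -/
theorem dq_Γ (c : ℝ) {a a' b b' : M →ₘ[m] ℝ} (ha : a ∈ C.W) (ha' : a' ∈ C.W) (hb : b ∈ C.W)
    (hb' : b' ∈ C.W) :
    c • (C.Γ a b - C.Γ a' b') = C.Γ (c • (a - a')) b + C.Γ a' (c • (b - b')) := by
  rw [hC.smul_left _ _ (hC.sub_mem ha ha') _ hb, hC.Γ_smul_right _ ha' (hC.sub_mem hb hb'),
    hC.Γ_sub_left ha ha' hb, hC.Γ_sub_right ha' hb hb', ← smul_add]
  congr 1
  ring

/-- `Γ(f_t,g_t)` is differentiable in `L¹` -/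
theorem DW_Γ (h1 : C.DW f f' S t) (h2 : C.DW g g' S t) (hf : f t ∈ C.W) (hg : g t ∈ C.W) :
    DL1 (fun r => C.Γ (f r) (g r)) (C.Γ f' (g t) + C.Γ (f t) g') S t := by
  have a1 := hC.DW_mem_all h1 hf
  have a2 := hC.DW_mem_all h2 hg
  refine DL1.of_seq (fun r hr => ?_) (mem_add (hC.Γ_mem1 h1.mem' hg) (hC.Γ_mem1 hf h2.mem'))
    fun r hr => ?_
  · exact mem_sub (hC.Γ_mem1 (a1 r hr) (a2 r hr)) (hC.Γ_mem1 hf hg)
  · have := (hC.TW_Γ1 (hC.DW_seq h1 hr) (hC.DW_tw h2 hg hr)).add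
      (hC.TW_Γ1 (hC.TW_const hf) (hC.DW_seq h2 hr))
    refine ⟨fun n => ?_, this.mem', this.lim.congr fun n => ?_⟩
    · exact mem_smul _ (mem_sub (hC.Γ_mem1 (a1 _ (hr.mem n)) (a2 _ (hr.mem n)))
        (hC.Γ_mem1 hf hg))
    · rw [hC.dq_Γ _ (a1 _ (hr.mem n)) hf (a2 _ (hr.mem n)) hg]

theorem BdG_top (hb : C.BdG f S) {r : ℝ} (hr : r ∈ S) (hf : f r ∈ C.W) :
    MemLp (C.Γ (f r) (f r)) ∞ m := by
  obtain ⟨K, hK⟩ := hb
  refine mem_top_iff.2 ⟨K, ?_⟩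
  filter_upwards [hK r hr, hC.Γ_nonneg_ae hf] with x h1 h2
  rwa [abs_of_nonneg h2]

/-- `Γ(f_t,h)` is differentiable in `L²`, `h` fixed with bounded gradient -/
theorem DW_Γ_fix (h1 : C.DW f f' S t) (hf : f t ∈ C.W) (hh : h ∈ C.W)
    (hb : MemLp (C.Γ h h) ∞ m) : DL2 (fun r => C.Γ (f r) h) (C.Γ f' h) S t := by
  have a1 := hC.DW_mem_all h1 hf
  have sw : ∀ {p : M →ₘ[m] ℝ}, p ∈ C.W → C.Γ p h = C.Γ h p := fun hp => hC.symm _ hp _ hh
  have m2 : ∀ {p : M →ₘ[m] ℝ}, p ∈ C.W → MemLp (C.Γ p h) 2 m := fun hp => by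
    rw [sw hp]; exact hC.Γ_mem2 hh hb hp
  obtain ⟨K, hK⟩ := mem_top_iff.1 hb
  refine DL2.of_seq (fun r hr => mem_sub (m2 (a1 r hr)) (m2 hf)) (m2 h1.mem') fun r hr => ?_
  have := hC.TW_Γ2 (hC.TW_const hh) ⟨K, fun n => by
    filter_upwards [hK] with z hz using (le_abs_self _).trans hz⟩ (hC.DW_seq h1 hr)
  rw [← sw h1.mem'] at this
  refine ⟨fun n => mem_smul _ (mem_sub (m2 (a1 _ (hr.mem n))) (m2 hf)), this.mem',
    this.lim.congr fun n => ?_⟩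
  have e : C.Γ h ((r n - t)⁻¹ • (f (r n) - f t)) = (r n - t)⁻¹ • (C.Γ (f (r n)) h - C.Γ (f t) h) := by
    rw [← sw (hC.smul_mem _ _ (h1.mem _ (hr.mem n))), hC.smul_left _ _ (h1.mem _ (hr.mem n)) _ hh,
      hC.Γ_sub_left (a1 _ (hr.mem n)) hf hh]
  rw [e]

/-- `Γ(f_t,g_t)` is differentiable in `L²` if both gradients are bounded -/
theorem DW_Γ2 (h1 : C.DW f f' S t) (h2 : C.DW g g' S t) (ht : t ∈ S) (hf : f t ∈ C.W)
    (hg : g t ∈ C.W) (bf : C.BdG f S) (bg : C.BdG g S) :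
    DL2 (fun r => C.Γ (f r) (g r)) (C.Γ f' (g t) + C.Γ (f t) g') S t := by
  have a1 := hC.DW_mem_all h1 hf
  have a2 := hC.DW_mem_all h2 hg
  have tf := hC.BdG_top bf ht hf
  have tg := hC.BdG_top bg ht hg
  have m0 : ∀ r ∈ S, MemLp (C.Γ (f r) (g r)) 2 m := fun r hr =>
    hC.Γ_mem2 (a1 r hr) (hC.BdG_top bf hr (a1 r hr)) (a2 r hr)
  have m1 : MemLp (C.Γ f' (g t)) 2 m := by
    rw [hC.symm _ h1.mem' _ hg]; exact hC.Γ_mem2 hg tg h1.mem'
  refine DL2.of_seq (fun r hr => mem_sub (m0 r hr) (m0 t ht))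
    (mem_add m1 (hC.Γ_mem2 hf tf h2.mem')) fun r hr => ?_
  obtain ⟨K, hK⟩ := id bf
  obtain ⟨L, hL⟩ := id bg
  have b1 := hC.TW_Γ2 (hC.DW_tw h2 hg hr) ⟨L, fun n => hL _ (hr.mem n)⟩ (hC.DW_seq h1 hr)
  have b2 := hC.TW_Γ2 (hC.TW_const hf) ⟨K, fun n => hK t ht⟩ (hC.DW_seq h2 hr)
  have := b1.add b2
  rw [hC.symm _ hg _ h1.mem'] at this
  refine ⟨fun n => mem_smul _ (mem_sub (m0 _ (hr.mem n)) (m0 t ht)), this.mem',
    this.lim.congr fun n => ?_⟩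
  rw [hC.dq_Γ _ (a1 _ (hr.mem n)) hf (a2 _ (hr.mem n)) hg,
    hC.symm _ (a2 _ (hr.mem n)) _ (hC.smul_mem _ _ (h1.mem _ (hr.mem n)))]

/-- `Γ(f_t,g_t)`, both gradients bounded, is a bounded curve -/
theorem BdG_Γ (bf : C.BdG f S) (bg : C.BdG g S) (hf : ∀ r ∈ S, f r ∈ C.W)
    (hg : ∀ r ∈ S, g r ∈ C.W) : BdS (fun r => C.Γ (f r) (g r)) S := by
  obtain ⟨K, hK⟩ := bf
  obtain ⟨L, hL⟩ := bg
  refine ⟨√|K| * √|L|, fun r hr => ?_⟩
  filter_upwards [hC.Γ_abs_ae (hf r hr) (hg r hr), hK r hr, hL r hr] with z e1 e2 e3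
  exact e1.trans (mul_le_mul (Real.sqrt_le_sqrt (e2.trans (le_abs_self _)))
    (Real.sqrt_le_sqrt (e3.trans (le_abs_self _))) (Real.sqrt_nonneg _) (Real.sqrt_nonneg _))

theorem BdG_add (bf : C.BdG f S) (bg : C.BdG g S) (hf : ∀ r ∈ S, f r ∈ C.W)
    (hg : ∀ r ∈ S, g r ∈ C.W) : C.BdG (fun r => f r + g r) S := by
  obtain ⟨K, hK⟩ := bf
  obtain ⟨L, hL⟩ := bg
  refine ⟨2 * K + 2 * L, fun r hr => ?_⟩
  have e : f r + g r = f r - (-g r) := by ring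
  have e2 : C.Γ (-g r) (-g r) = C.Γ (g r) (g r) := by
    rw [hC.Γ_neg_left (hg r hr) (hC.neg_mem (hg r hr)), hC.Γ_neg_right (hg r hr) (hg r hr), neg_neg]
  have := hC.Γ_sub_le (hf r hr) (hC.neg_mem (hg r hr))
  rw [e2, ← e] at this
  filter_upwards [this, hK r hr, hL r hr] with z e1 e2 e3
  linarith

theorem BdG_smul (c : ℝ) (bf : C.BdG f S) (hf : ∀ r ∈ S, f r ∈ C.W) :
    C.BdG (fun r => c • f r) S := by
  obtain ⟨K, hK⟩ := bf
  refine ⟨c ^ 2 * K, fun r hr => ?_⟩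
  have e : C.Γ (c • f r) (c • f r) = (c ^ 2) • C.Γ (f r) (f r) := by
    rw [hC.smul_left _ _ (hf r hr) _ (hC.smul_mem _ _ (hf r hr)), hC.Γ_smul_right _ (hf r hr)
      (hf r hr), smul_smul, sq]
  rw [e]
  filter_upwards [hK r hr, smul_ae (C.Γ (f r) (f r)) (c ^ 2)] with z e1 e2
  rw [e2]
  exact mul_le_mul_of_nonneg_left e1 (sq_nonneg _)

/-! ### products in the Sobolev norm -/

/-- a bound for the norm of a product -/
theorem nrm2_mul_le' (hx : x ∈ C.W) (hy : y ∈ C.A) (hy' : MemLp (C.Γ y y) ∞ m) :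
    C.nrm2 (x * y) ≤ I (y ^ 2 * x ^ 2) + 2 * I (y ^ 2 * C.Γ x x) + 2 * I (C.Γ y y * x ^ 2) := by
  have hxy : x * y ∈ C.W := by
    rw [mul_comm]; exact hC.mul_mem_lip hy hy' hx
  have e1 : (x * y) ^ 2 = y ^ 2 * x ^ 2 := by ring
  have t2 : MemLp (y ^ 2 : M →ₘ[m] ℝ) ∞ m := by rw [sq]; exact mem_mul_top hy.2 hy.2
  have i1 : MemLp (y ^ 2 * C.Γ x x : M →ₘ[m] ℝ) 1 m := mem_mul_top t2 (hC.mem1 _ hx)
  have i2 : MemLp (C.Γ y y * x ^ 2 : M →ₘ[m] ℝ) 1 m := mem_mul_top hy' (mem_sq (hC.memLp _ hx))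
  have e2 : C.Γ (x * y) (x * y) = y * (y * C.Γ x x + x * C.Γ x y)
      + x * (y * C.Γ y x + x * C.Γ y y) := by
    have h1 : ∀ z ∈ C.W, C.Γ (x * y) z = y * C.Γ x z + x * C.Γ y z := fun z hz => by
      rw [mul_comm x y, hC.Γ_mul_left_lip hy hy' hx hz]
    rw [h1 _ hxy, hC.symm _ hx _ hxy, hC.symm _ hy.1 _ hxy, h1 _ hx, h1 _ hy.1,
      hC.symm _ hy.1 _ hx]
  unfold Calc.nrm2
  rw [e1, add_assoc]
  refine add_le_add le_rfl ?_
  rw [← I_smul, ← I_smul, ← I_add (mem_smul _ i1) (mem_smul _ i2)]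
  refine I_mono (hC.mem1 _ hxy) (mem_add (mem_smul _ i1) (mem_smul _ i2)) ?_
  rw [e2, le_iff_ae]
  filter_upwards [add_ae (y * (y * C.Γ x x + x * C.Γ x y)) (x * (y * C.Γ y x + x * C.Γ y y)),
    mul_ae y (y * C.Γ x x + x * C.Γ x y), mul_ae x (y * C.Γ y x + x * C.Γ y y),
    add_ae (y * C.Γ x x) (x * C.Γ x y), add_ae (y * C.Γ y x) (x * C.Γ y y),
    mul_ae y (C.Γ x x), mul_ae x (C.Γ x y), mul_ae y (C.Γ y x), mul_ae x (C.Γ y y),
    add_ae ((2 : ℝ) • (y ^ 2 * C.Γ x x)) ((2 : ℝ) • (C.Γ y y * x ^ 2)),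
    smul_ae (y ^ 2 * C.Γ x x) (2 : ℝ), smul_ae (C.Γ y y * x ^ 2) (2 : ℝ),
    mul_ae (y ^ 2) (C.Γ x x), mul_ae (C.Γ y y) (x ^ 2), sq_ae y, sq_ae x,
    hC.Γ_expand_ae (0 : ℝ) hx hy.1, hC.Γ_cs_ae hx hy.1, hC.Γ_nonneg_ae hx,
    hC.Γ_nonneg_ae hy.1] with z a1 a2 a3 a4 a5 a6 a7 a8 a9 b1 b2 b3 b4 b5 b6 b7 _ b8 b9 b10
  have hs : C.Γ y x = C.Γ x y := hC.symm _ hy.1 _ hx
  rw [a1, a2, a3, a4, a5, a6, a7, a8, a9, b1, b2, b3, b4, b5, b6, b7, hs]
  -- 2 x y Γ(x,y) ≤ y²Γ(x,x) + x²Γ(y,y)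
  have key : 2 * (x z * y z * C.Γ x y z) ≤ y z ^ 2 * C.Γ x x z + x z ^ 2 * C.Γ y y z := by
    have c1 : |C.Γ x y z| ≤ √(C.Γ x x z) * √(C.Γ y y z) := by
      rw [← Real.sqrt_mul b9, ← Real.sqrt_sq_eq_abs]
      exact Real.sqrt_le_sqrt b8
    have c2 : x z * y z * C.Γ x y z ≤ |x z| * |y z| * (√(C.Γ x x z) * √(C.Γ y y z)) := by
      refine (le_abs_self _).trans ?_
      rw [abs_mul, abs_mul]
      exact mul_le_mul_of_nonneg_left c1 (by positivity)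
    have c3 := sq_nonneg (|y z| * √(C.Γ x x z) - |x z| * √(C.Γ y y z))
    have c4 := Real.sq_sqrt b9
    have c5 := Real.sq_sqrt b10
    have c6 := sq_abs (x z)
    have c7 := sq_abs (y z)
    have c8 : (|y z| * √(C.Γ x x z) - |x z| * √(C.Γ y y z)) ^ 2
        = |y z| ^ 2 * √(C.Γ x x z) ^ 2 + |x z| ^ 2 * √(C.Γ y y z) ^ 2
          - 2 * (|x z| * |y z| * (√(C.Γ x x z) * √(C.Γ y y z))) := by ring
    rw [c4, c5, c6, c7] at c8
    linarith
  nlinarith [key]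

theorem I_bdd_mul_le {p q : M →ₘ[m] ℝ} {K : ℝ} (hp : ∀ᵐ z ∂m, |p z| ≤ K) (hq : MemLp q 1 m)
    (hq0 : 0 ≤ q) : I (p * q) ≤ |K| * I q := by
  rw [← I_smul]
  refine I_mono (mem_mul_top (mem_top_iff.2 ⟨K, hp⟩) hq) (mem_smul _ hq) ?_
  rw [le_iff_ae]
  filter_upwards [mul_ae p q, smul_ae q |K|, hp, nonneg_iff_ae.1 hq0] with z e1 e2 e3 e4
  rw [e1, e2]
  exact mul_le_mul_of_nonneg_right ((le_abs_self _).trans (e3.trans (le_abs_self _))) e4

/-- products converge in the Sobolev norm if one factor is bounded with bounded gradients -/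
theorem TW_mul (h1 : C.TW X x) (h2 : C.TW Y y) (hb : ∃ K : ℝ, ∀ n, ∀ᵐ z ∂m, |Y n z| ≤ K)
    (hg : ∃ K : ℝ, ∀ n, ∀ᵐ z ∂m, C.Γ (Y n) (Y n) z ≤ K) :
    C.TW (fun n => X n * Y n) (x * y) := by
  obtain ⟨⟨K', hK'⟩, h3⟩ := hC.TW_tm h2 hg
  have h4 : Tm Y y := (hC.TW_T2 h2).tm hb
  have h5 : Tm (fun n => Y n - y) 0 := by
    have := h4.sub' (Tm.const h4.mem')
    simpa using this
  obtain ⟨L, hL⟩ := id hb
  obtain ⟨K, hK⟩ := id hg
  have yA : y ∈ C.A := ⟨h2.mem', h4.mem'⟩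
  have YA : ∀ n, Y n ∈ C.A := fun n => ⟨h2.mem n, h4.mem n⟩
  have gy : MemLp (C.Γ y y) ∞ m := mem_top_iff.2 ⟨K', by
    filter_upwards [hK', hC.Γ_nonneg_ae h2.mem'] with z e1 e2
    rwa [abs_of_nonneg e2]⟩
  have gYb : ∀ n, ∀ᵐ z ∂m, |C.Γ (Y n) (Y n) z| ≤ K := fun n => by
    filter_upwards [hK n, hC.Γ_nonneg_ae (h2.mem n)] with z e1 e2
    rwa [abs_of_nonneg e2]
  have gY : ∀ n, MemLp (C.Γ (Y n) (Y n)) ∞ m := fun n => mem_top_iff.2 ⟨K, gYb n⟩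
  have m1 : ∀ n, X n * Y n ∈ C.W := fun n => by
    rw [mul_comm]; exact hC.mul_mem_lip (YA n) (gY n) (h1.mem n)
  have m2 : x * y ∈ C.W := by rw [mul_comm]; exact hC.mul_mem_lip yA gy h1.mem'
  have dX := fun n => hC.sub_mem (h1.mem n) h1.mem'
  have dY := fun n => hC.sub_mem (h2.mem n) h2.mem'
  have m3 : ∀ n, (X n - x) * Y n ∈ C.W := fun n => by
    rw [mul_comm]; exact hC.mul_mem_lip (YA n) (gY n) (dX n)
  have dA : ∀ n, Y n - y ∈ C.A := fun n => hC.A_sub (YA n) yA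
  have gd : ∀ n, MemLp (C.Γ (Y n - y) (Y n - y)) ∞ m := fun n => h3.mem n
  have m4 : ∀ n, x * (Y n - y) ∈ C.W := fun n => by
    rw [mul_comm]; exact hC.mul_mem_lip (dA n) (gd n) h1.mem'
  refine ⟨m1, m2, ?_⟩
  -- first term
  have Y2 : ∀ n, ∀ᵐ z ∂m, |(Y n ^ 2 : M →ₘ[m] ℝ) z| ≤ |L| ^ 2 := fun n => by
    filter_upwards [sq_ae (Y n), hL n] with z e1 e2
    rw [e1, abs_pow]
    exact pow_le_pow_left₀ (abs_nonneg _) (e2.trans (le_abs_self _)) 2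
  have b1 : ∀ n, C.nrm2 ((X n - x) * Y n) ≤
      (|L| ^ 2 + 2 * |L| ^ 2 + 2 * |K|) * C.nrm2 (X n - x) := fun n => by
    have c0 := hC.nrm2_mul_le' (dX n) (YA n) (gY n)
    have q1 := mem_sq (hC.memLp _ (dX n))
    have q2 := hC.mem1 _ (dX n)
    have c1 := hC.I_bdd_mul_le (Y2 n) q1 (sq_nonneg' _)
    have c2 := hC.I_bdd_mul_le (Y2 n) q2 (hC.nonneg _ (dX n))
    have c3 := hC.I_bdd_mul_le (gYb n) q1 (sq_nonneg' _)
    have c4 := hC.I_sq_le_nrm2 (dX n)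
    have c5 := hC.E_le_nrm2 (X n - x)
    rw [abs_of_nonneg (sq_nonneg |L|)] at c1 c2
    have c6 := mul_le_mul_of_nonneg_left c4 (sq_nonneg |L|)
    have c7 := mul_le_mul_of_nonneg_left c5 (sq_nonneg |L|)
    have c8 := mul_le_mul_of_nonneg_left c4 (abs_nonneg K)
    nlinarith only [c0, c1, c2, c3, c6, c7, c8]
  have l1 : Tendsto (fun n => C.nrm2 ((X n - x) * Y n)) atTop (𝓝 0) :=
    squeeze_zero (fun n => hC.nrm2_nonneg (m3 n)) b1 (by simpa using h1.lim.const_mul _)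
  -- second term
  have l2 : Tendsto (fun n => C.nrm2 (x * (Y n - y))) atTop (𝓝 0) := by
    have s1 : Tm (fun n => (Y n - y) ^ 2) 0 := by
      have := h5.mulb h5
      simpa [sq] using this
    have t1 := (s1.mul1 (T1.const (mem_sq (hC.memLp _ h1.mem')))).I_lim
    have t2 := (s1.mul1 (T1.const (hC.mem1 _ h1.mem'))).I_lim
    have t3 := (h3.mul1 (T1.const (mem_sq (hC.memLp _ h1.mem')))).I_lim
    simp only [zero_mul, I_zero] at t1 t2 t3
    refine squeeze_zero (fun n => hC.nrm2_nonneg (m4 n))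
      (fun n => hC.nrm2_mul_le' h1.mem' (dA n) (gd n)) ?_
    simpa using (t1.add (t2.const_mul 2)).add (t3.const_mul 2)
  refine squeeze_zero (fun n => hC.nrm2_nonneg (hC.sub_mem (m1 n) m2)) (fun n => ?_)
    (by simpa using (l1.const_mul 2).add (l2.const_mul 2))
  have e : X n * Y n - x * y = (X n - x) * Y n + x * (Y n - y) := by ring
  rw [e]
  exact hC.nrm2_add_le (m3 n) (m4 n)

/-- products of curves in the Sobolev norm; both factors bounded with bounded gradients -/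
theorem DW_mul (h1 : C.DW f f' S t) (h2 : C.DW g g' S t) (ht : t ∈ S) (hf : f t ∈ C.W)
    (hg : g t ∈ C.W) (f1 : MemLp (f t) ∞ m) (f2 : MemLp (C.Γ (f t) (f t)) ∞ m)
    (g1 : BdS g S) (g2 : C.BdG g S) :
    C.DW (fun r => f r * g r) (f' * g t + f t * g') S t := by
  have a1 := hC.DW_mem_all h1 hf
  have a2 := hC.DW_mem_all h2 hg
  have gA : ∀ r ∈ S, g r ∈ C.A := fun r hr => ⟨a2 r hr, g1.top hr⟩
  have gG : ∀ r (hr : r ∈ S), MemLp (C.Γ (g r) (g r)) ∞ m := fun r hr =>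
    hC.BdG_top g2 hr (a2 r hr)
  have fA : f t ∈ C.A := ⟨hf, f1⟩
  have m0 : ∀ r ∈ S, f r * g r ∈ C.W := fun r hr => by
    rw [mul_comm]; exact hC.mul_mem_lip (gA r hr) (gG r hr) (a1 r hr)
  have m1 : f' * g t ∈ C.W := by
    rw [mul_comm]; exact hC.mul_mem_lip (gA t ht) (gG t ht) h1.mem'
  have m2 : f t * g' ∈ C.W := hC.mul_mem_lip fA f2 h2.mem'
  obtain ⟨K, hK⟩ := id g1
  obtain ⟨L, hL⟩ := id g2
  refine hC.DW_of_seq (fun r hr => hC.sub_mem (m0 r hr) (m0 t ht)) (hC.add_mem _ m1 _ m2)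
    fun r hr => ?_
  have b1 := hC.TW_mul (hC.DW_seq h1 hr) (hC.DW_tw h2 hg hr) ⟨K, fun n => hK _ (hr.mem n)⟩
    ⟨L, fun n => hL _ (hr.mem n)⟩
  obtain ⟨K1, hK1⟩ := mem_top_iff.1 f1
  obtain ⟨L1, hL1⟩ := mem_top_iff.1 f2
  have b2 := hC.TW_mul (hC.DW_seq h2 hr) (hC.TW_const hf) ⟨K1, fun _ => hK1⟩
    ⟨L1, fun _ => by filter_upwards [hL1] with z hz using (le_abs_self _).trans hz⟩
  have := hC.TW_add b1 b2
  rw [mul_comm g' (f t)] at this
  refine ⟨fun n => hC.smul_mem _ _ (hC.sub_mem (m0 _ (hr.mem n)) (m0 t ht)), this.mem',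
    this.lim.congr fun n => ?_⟩
  rw [dq_mul, mul_comm (f t) ((r n - t)⁻¹ • (g (r n) - g t))]

/-- multiplication by a fixed bounded function with bounded gradient -/
theorem DW_const_mul (h1 : C.DW f f' S t) (hk : k ∈ C.A) (hk' : MemLp (C.Γ k k) ∞ m) :
    C.DW (fun r => k * f r) (k * f') S t := by
  have e : ∀ r, k * f r - k * f t = k * (f r - f t) := fun r => by ring
  obtain ⟨K1, hK1⟩ := mem_top_iff.1 hk.2
  obtain ⟨L1, hL1⟩ := mem_top_iff.1 hk'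
  refine hC.DW_of_seq (fun r hr => ?_) (hC.mul_mem_lip hk hk' h1.mem') fun r hr => ?_
  · rw [e]; exact hC.mul_mem_lip hk hk' (h1.mem r hr)
  · have := hC.TW_mul (hC.DW_seq h1 hr) (hC.TW_const hk.1) ⟨K1, fun _ => hK1⟩
      ⟨L1, fun _ => by filter_upwards [hL1] with z hz using (le_abs_self _).trans hz⟩
    simp only [smul_mul_assoc] at this
    simp only [mul_comm _ k, ← e] at this
    exact this

/-! ### mixed integrals -/

/-- `d/dt ∫ a Γ(b,c)`, everything bounded -/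
theorem I_aΓ {a b c : ℝ → M →ₘ[m] ℝ} {a' b' c' : M →ₘ[m] ℝ} (ha : DL2 a a' S t) (ba : BdS a S)
    (hb : C.DW b b' S t) (hc : C.DW c c' S t) (ht : t ∈ S) (hbt : b t ∈ C.W) (hct : c t ∈ C.W)
    (bb : C.BdG b S) (bc : C.BdG c S) :
    HasDerivWithinAt (fun r => I (a r * C.Γ (b r) (c r)))
      (I (a' * C.Γ (b t) (c t)) + I (a t * C.Γ b' (c t)) + I (a t * C.Γ (b t) c')) S t := by
  have hbS := hC.DW_mem_all hb hbt
  have hcS := hC.DW_mem_all hc hct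
  have h1 := hC.DW_Γ hb hc hbt hct
  have h2 := ha.mul_DL1_bdd ht (ba.top ht) h1 (hC.BdG_Γ bb bc hbS hcS) (hC.Γ_mem1 hbt hct)
  have h3 := h2.I_hasDeriv (fun r hr => mem_mul_top (ba.top hr) (hC.Γ_mem1 (hbS r hr) (hcS r hr)))
    (mem_mul_top (ba.top ht) (hC.Γ_mem1 hbt hct))
  have m1 : MemLp (a' * C.Γ (b t) (c t) : M →ₘ[m] ℝ) 1 m :=
    mem_mul_22 ha.mem' (hC.Γ_mem2 hbt (hC.BdG_top bb ht hbt) hct)
  rw [mul_add, I_add m1 (mem_add (mem_mul_top (ba.top ht) (hC.Γ_mem1 hb.mem' hct))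
    (mem_mul_top (ba.top ht) (hC.Γ_mem1 hbt hc.mem'))), I_add (mem_mul_top (ba.top ht)
    (hC.Γ_mem1 hb.mem' hct)) (mem_mul_top (ba.top ht) (hC.Γ_mem1 hbt hc.mem')), ← add_assoc] at h3
  exact h3

/-- `d/dt ∫ Γ(b,c)` -/
theorem I_Γ {b c : ℝ → M →ₘ[m] ℝ} {b' c' : M →ₘ[m] ℝ}
    (hb : C.DW b b' S t) (hc : C.DW c c' S t) (hbt : b t ∈ C.W) (hct : c t ∈ C.W) :
    HasDerivWithinAt (fun r => I (C.Γ (b r) (c r)))
      (I (C.Γ b' (c t)) + I (C.Γ (b t) c')) S t := by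
  have hbS := hC.DW_mem_all hb hbt
  have hcS := hC.DW_mem_all hc hct
  have h3 := (hC.DW_Γ hb hc hbt hct).I_hasDeriv (fun r hr => hC.Γ_mem1 (hbS r hr) (hcS r hr))
    (hC.Γ_mem1 hbt hct)
  rwa [I_add (hC.Γ_mem1 hb.mem' hct) (hC.Γ_mem1 hbt hc.mem')] at h3

end IsDir

/-- `d/dt ∫ a b` -/
theorem DL2.I_mul {a b : ℝ → M →ₘ[m] ℝ} {a' b' : M →ₘ[m] ℝ} (ha : DL2 a a' S t)
    (hb : DL2 b b' S t) (hat : MemLp (a t) 2 m) (hbt : MemLp (b t) 2 m) :
    HasDerivWithinAt (fun r => I (a r * b r)) (I (a' * b t) + I (a t * b')) S t := by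
  have h3 := (ha.mul_L1 hb hat hbt).I_hasDeriv
    (fun r hr => mem_mul_22 (ha.mem_all hat r hr) (hb.mem_all hbt r hr)) (mem_mul_22 hat hbt)
  rwa [I_add (mem_mul_22 ha.mem' hbt) (mem_mul_22 hat hb.mem')] at h3

/-- `d/dt ∫ a²` -/
theorem DL2.I_sq {a : ℝ → M →ₘ[m] ℝ} {a' : M →ₘ[m] ℝ} (ha : DL2 a a' S t)
    (hat : MemLp (a t) 2 m) :
    HasDerivWithinAt (fun r => I (a r ^ 2)) (2 * I (a t * a')) S t := by
  have := ha.I_mul ha hat hat
  simp only [← sq] at this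
  rwa [mul_comm a' (a t), ← two_mul] at this

/-- `d/dt ∫ w a`, `w` a fixed element of `L²` -/
theorem DL2.I_const_mul {a : ℝ → M →ₘ[m] ℝ} {a' : M →ₘ[m] ℝ} (ha : DL2 a a' S t)
    (hw : MemLp w 2 m) (hat : MemLp (a t) 2 m) :
    HasDerivWithinAt (fun r => I (w * a r)) (I (w * a')) S t :=
  (ha.const_mul1 hw).I_hasDeriv (fun r hr => mem_mul_22 hw (ha.mem_all hat r hr))
    (mem_mul_22 hw hat)

end Vale.Agent.P233
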