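import Vale.Agent.P233.H66.B1Stat

/-!
P233, block B1 of `Gig/IfB`: derivatives of the energies and of the entropy along a regular pair.
-/

set_option linter.all false

open MeasureTheory Filter Topology Set
open scoped ENNReal NNReal InnerProductSpace

universe u

namespace Vale.Agent.P233

theorem contWithin_of_sq {S : Set ℝ} {t : ℝ} {F : ℝ → ℝ}
    (h : ∀ r : ℕ → ℝ, Sq S t r → Tendsto (fun n => F (r n)) atTop (𝓝 (F t))) :
    ContinuousWithinAt F S t := by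
  rw [← continuousWithinAt_diff_self]
  exact tendsto_of_sq h

variable {M : Type*} [MeasurableSpace M] {m : Measure M} {C : Calc m}

theorem IsDir.DW_of_DerW (hC : IsDir C) {J : Set ℝ} {f : ℝ → M →ₘ[m] ℝ} {f' : M →ₘ[m] ℝ} {t : ℝ}
    (h : C.DerW J f f' t) (ht : f t ∈ C.W) (hf : ∀ r ∈ J, f r ∈ C.W) (hf' : f' ∈ C.W) :
    C.DW f f' J t := ⟨fun r hr => hC.sub_mem (hf r hr) ht, hf', h⟩

theorem IsDir.TW_of_CtW (hC : IsDir C) {J : Set ℝ} {f : ℝ → M →ₘ[m] ℝ} {t : ℝ}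
    (h : C.CtW J f t) (ht : f t ∈ C.W) (hf : ∀ r ∈ J, f r ∈ C.W) {r : ℕ → ℝ} (hr : Sq J t r) :
    C.TW (fun n => f (r n)) (f t) :=
  ⟨fun n => hf _ (hr.mem n), ht, h.comp (tendsto_nhdsWithin_iff.2
    ⟨hr.lim, Eventually.of_forall hr.mem⟩)⟩

namespace H66

/-! ### the entropy density `H(L) = L - exp L + 1` -/

theorem exp_taylor {B a b : ℝ} (ha : |a| ≤ B) (hb : |b| ≤ B) :
    |Real.exp b - Real.exp a - Real.exp a * (b - a)| ≤ Real.exp B * (b - a) ^ 2 := by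
  have key : ∀ y : ℝ, 0 ≤ Real.exp y - 1 - y := fun y => by linarith [Real.add_one_le_exp y]
  have h0 : 0 ≤ Real.exp b - Real.exp a - Real.exp a * (b - a) := by
    have h1 := key (b - a)
    have h2 := mul_nonneg (Real.exp_pos a).le h1
    have h3 : Real.exp a * Real.exp (b - a) = Real.exp b := by
      rw [← Real.exp_add]; congr 1; ring
    nlinarith [h2, h3]
  rw [abs_of_nonneg h0]
  -- `exp b - exp a ≤ exp b (b-a)`
  have h4 : Real.exp b - Real.exp a ≤ Real.exp b * (b - a) := by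
    have h1 := key (a - b)
    have h2 := mul_nonneg (Real.exp_pos b).le h1
    have h3 : Real.exp b * Real.exp (a - b) = Real.exp a := by
      rw [← Real.exp_add]; congr 1; ring
    nlinarith [h2, h3]
  have h5 : |Real.exp b - Real.exp a| ≤ Real.exp B * |b - a| := by
    rcases le_total a b with hab | hab
    · rw [abs_of_nonneg (sub_nonneg.2 (Real.exp_le_exp.2 hab)), abs_of_nonneg (sub_nonneg.2 hab)]
      refine h4.trans (mul_le_mul_of_nonneg_right ?_ (sub_nonneg.2 hab))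
      exact Real.exp_le_exp.2 ((le_abs_self b).trans hb)
    · have h6 : Real.exp a - Real.exp b ≤ Real.exp a * (a - b) := by
        have h1 := key (b - a)
        have h2 := mul_nonneg (Real.exp_pos a).le h1
        have h3 : Real.exp a * Real.exp (b - a) = Real.exp b := by
          rw [← Real.exp_add]; congr 1; ring
        nlinarith [h2, h3]
      rw [abs_sub_comm, abs_sub_comm b a, abs_of_nonneg (sub_nonneg.2 (Real.exp_le_exp.2 hab)),
        abs_of_nonneg (sub_nonneg.2 hab)]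
      refine h6.trans (mul_le_mul_of_nonneg_right ?_ (sub_nonneg.2 hab))
      exact Real.exp_le_exp.2 ((le_abs_self a).trans ha)
  calc Real.exp b - Real.exp a - Real.exp a * (b - a)
      ≤ Real.exp b * (b - a) - Real.exp a * (b - a) := by linarith
    _ = (Real.exp b - Real.exp a) * (b - a) := by ring
    _ ≤ |(Real.exp b - Real.exp a) * (b - a)| := le_abs_self _
    _ = |Real.exp b - Real.exp a| * |b - a| := abs_mul _ _
    _ ≤ Real.exp B * |b - a| * |b - a| := mul_le_mul_of_nonneg_right h5 (abs_nonneg _)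
    _ = Real.exp B * (b - a) ^ 2 := by rw [mul_assoc, abs_mul_abs_self, sq]

theorem ex_ae' (f : M →ₘ[m] ℝ) : ∀ᵐ x ∂m, ex f x = Real.exp (f x) :=
  AEEqFun.coeFn_comp Real.exp Real.continuous_exp f

/-- `d/dt (L - (exp L - 1)) = (1 - exp L) L'` in `L¹` -/
theorem DL1_H {L : ℝ → M →ₘ[m] ℝ} {L' : M →ₘ[m] ℝ} {S : Set ℝ} {t : ℝ}
    (h : DL2 L L' S t) (ht : t ∈ S) (hb : BdS L S) (hLt : MemLp (L t) 2 m)
    (hex : ∀ r ∈ S, MemLp (ex (L r) - 1 : M →ₘ[m] ℝ) 2 m) :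
    (∀ r ∈ S, MemLp (L r - (ex (L r) - 1) : M →ₘ[m] ℝ) 1 m) ∧
    DL1 (fun r => L r - (ex (L r) - 1)) (-((ex (L t) - 1) * L')) S t := by
  obtain ⟨B, hB⟩ := id hb
  have hL2 := h.mem_all hLt
  -- integrability
  have m0 : ∀ r ∈ S, MemLp (L r - (ex (L r) - 1) : M →ₘ[m] ℝ) 1 m := by
    intro r hr
    refine mem_of_le (mem_smul (Real.exp |B|) (mem_sq (hL2 r hr))) ?_
    filter_upwards [hB r hr, sub_ae (L r) (ex (L r) - 1), sub_ae (ex (L r)) 1, ex_ae' (L r),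
      one_ae (M := M) (m := m), smul_ae (L r ^ 2) (Real.exp |B|), sq_ae (L r)]
      with x h1 h2 h3 h4 h5 h6 h7
    rw [h2, h3, h4, h5, h6, h7]
    have := exp_taylor (a := 0) (b := L r x) (B := |B|) (by simp) (h1.trans (le_abs_self _))
    simp only [Real.exp_zero, one_mul, sub_zero] at this
    rw [abs_of_nonneg (by positivity : 0 ≤ Real.exp |B| * L r x ^ 2)]
    have e : L r x - (Real.exp (L r x) - 1) = -(Real.exp (L r x) - 1 - L r x) := by ring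
    rw [e, abs_neg]
    exact this
  have mG : MemLp (-((ex (L t) - 1) * L') : M →ₘ[m] ℝ) 1 m :=
    mem_neg (mem_mul_22 (hex t ht) h.mem')
  refine ⟨m0, DL1.of_seq (fun r hr => mem_sub (m0 r hr) (m0 t ht)) mG fun r hr => ?_⟩
  -- difference quotient
  have hq := h.seq hr
  have h0 := h.seq_sub hr
  have main : T1 (fun n => -((ex (L t) - 1) * ((r n - t)⁻¹ • (L (r n) - L t))))
      (-((ex (L t) - 1) * L')) := ((T2.const (hex t ht)).mul hq).neg
  -- the error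
  set Er : ℕ → M →ₘ[m] ℝ := fun n => (r n - t)⁻¹ • (L (r n) - (ex (L (r n)) - 1)
    - (L t - (ex (L t) - 1))) - -((ex (L t) - 1) * ((r n - t)⁻¹ • (L (r n) - L t))) with hEr
  have mE : ∀ n, MemLp (Er n) 1 m := fun n =>
    mem_sub (mem_smul _ (mem_sub (m0 _ (hr.mem n)) (m0 t ht))) (main.mem n)
  have hz : T1 (fun n => Real.exp |B| • (((r n - t)⁻¹ • (L (r n) - L t)) * (L (r n) - L t))) 0 := by
    have := (hq.mul h0).smul (Real.exp |B|)
    simpa using this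
  have hE : T1 Er 0 := by
    refine hz.zero_of_le mE fun n => ?_
    filter_upwards [hB _ (hr.mem n), hB t ht, ex_ae' (L (r n)), ex_ae' (L t),
      one_ae (M := M) (m := m),
      sub_ae ((r n - t)⁻¹ • (L (r n) - (ex (L (r n)) - 1) - (L t - (ex (L t) - 1))))
        (-((ex (L t) - 1) * ((r n - t)⁻¹ • (L (r n) - L t)))),
      smul_ae (L (r n) - (ex (L (r n)) - 1) - (L t - (ex (L t) - 1))) (r n - t)⁻¹,
      sub_ae (L (r n) - (ex (L (r n)) - 1)) (L t - (ex (L t) - 1)),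
      sub_ae (L (r n)) (ex (L (r n)) - 1), sub_ae (ex (L (r n))) 1,
      sub_ae (L t) (ex (L t) - 1), sub_ae (ex (L t)) 1,
      neg_ae ((ex (L t) - 1) * ((r n - t)⁻¹ • (L (r n) - L t))),
      mul_ae (ex (L t) - 1) ((r n - t)⁻¹ • (L (r n) - L t)),
      smul_ae (L (r n) - L t) (r n - t)⁻¹, sub_ae (L (r n)) (L t),
      smul_ae (((r n - t)⁻¹ • (L (r n) - L t)) * (L (r n) - L t)) (Real.exp |B|),
      mul_ae ((r n - t)⁻¹ • (L (r n) - L t)) (L (r n) - L t)]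
      with x b1 b2 e1 e2 e3 c1 c2 c3 c4 c5 c6 c7 c8 c9 d1 d2 d3 d4
    rw [hEr]
    simp only
    rw [c1, c2, c3, c4, c5, c6, c8, c9, c7, d3, d4, d1, d2, e1, e2, e3]
    have key := exp_taylor (a := L t x) (b := L (r n) x) (B := |B|)
      (b2.trans (le_abs_self _)) (b1.trans (le_abs_self _))
    set c := (r n - t)⁻¹
    have e4 : c * (L (r n) x - (Real.exp (L (r n) x) - 1) - (L t x - (Real.exp (L t x) - 1)))
        - -((Real.exp (L t x) - 1) * (c * (L (r n) x - L t x)))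
        = -(c * (Real.exp (L (r n) x) - Real.exp (L t x)
          - Real.exp (L t x) * (L (r n) x - L t x))) := by ring
    have e5 : Real.exp |B| * (c * (L (r n) x - L t x) * (L (r n) x - L t x))
        = c * (Real.exp |B| * (L (r n) x - L t x) ^ 2) := by ring
    rw [e4, e5, abs_neg, abs_mul, abs_mul]
    refine mul_le_mul_of_nonneg_left ?_ (abs_nonneg _)
    exact key.trans (le_abs_self _)
  have := hE.add main
  have e : (fun n => Er n + -((ex (L t) - 1) * ((r n - t)⁻¹ • (L (r n) - L t))))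
      = fun n => (r n - t)⁻¹ • (L (r n) - (ex (L (r n)) - 1) - (L t - (ex (L t) - 1))) := by
    funext n; simp only [hEr]; abel
  rw [e, zero_add] at this
  exact this

section

variable (hC : IsGamma C) {κ : ℝ} (hB : C.BEi κ)
variable {ρ f g : M →ₘ[m] ℝ}

include hC hB

theorem G2_smul (hρ : MemLp ρ ∞ m) (hr : ρ - 1 ∈ C.Test) (c : ℝ) (hf : f ∈ C.Test) :
    C.G2 (c • f) ρ = c ^ 2 * C.G2 f ρ := by
  have hD := hC.toIsDir
  have fW := (hC.test_A hf).1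
  have rW := (hC.test_A hr).1
  have gW := (hC.Γ_mem hB hf hf).1
  have lW := hC.test_lap_mem hf
  have e1 : C.Γ (c • f) (c • f) = (c ^ 2) • C.Γ f f := by
    rw [hD.smul_left _ _ fW _ (hD.smul_mem _ _ fW), hD.Γ_smul_right _ fW fW, smul_smul, sq]
  have e2 : C.Γ (c • f) (C.lap (c • f)) = (c ^ 2) • C.Γ f (C.lap f) := by
    rw [hC.lap_smul hB _ hf, hD.smul_left _ _ fW _ (hD.smul_mem _ _ lW),
      hD.Γ_smul_right _ fW lW, smul_smul, sq]
  unfold Calc.G2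
  rw [e1, e2, hD.smul_left _ _ gW _ rW, mul_smul_comm, I_smul, I_smul]
  ring

theorem G2_parallel (hρ : MemLp ρ ∞ m) (hr : ρ - 1 ∈ C.Test) (hf : f ∈ C.Test)
    (hg : g ∈ C.Test) :
    C.G2 (f + g) ρ + C.G2 (f - g) ρ = 2 * C.G2 f ρ + 2 * C.G2 g ρ := by
  have hD := hC.toIsDir
  have fW := (hC.test_A hf).1
  have gW := (hC.test_A hg).1
  have rW := (hC.test_A hr).1
  have ff := (hC.Γ_mem hB hf hf).1
  have gg := (hC.Γ_mem hB hg hg).1
  have fg := (hC.Γ_mem hB hf hg).1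
  have lf := hC.test_lap_mem hf
  have lg := hC.test_lap_mem hg
  have sgW := hD.add_mem _ fW _ gW
  have dgW := hD.sub_mem fW gW
  have hng : (-1 : ℝ) • g ∈ C.Test := hC.test_smul hB _ hg
  have es : f - g = f + (-1 : ℝ) • g := by rw [neg_one_smul, sub_eq_add_neg]
  have l1 : C.lap (f + g) = C.lap f + C.lap g := hC.lap_add hB hf hg
  have l2 : C.lap (f - g) = C.lap f - C.lap g := by
    rw [es, hC.lap_add hB hf hng, hC.lap_smul hB _ hg, neg_one_smul, sub_eq_add_neg]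
  have hs : C.Γ g f = C.Γ f g := hD.symm _ gW _ fW
  have e1 : C.Γ (f + g) (f + g) = C.Γ f f + (2 : ℝ) • C.Γ f g + C.Γ g g := by
    have := hD.Γ_expand (1 : ℝ) fW gW
    simpa using this
  have e2 : C.Γ (f - g) (f - g) = C.Γ f f + (-2 : ℝ) • C.Γ f g + C.Γ g g := by
    have := hD.Γ_expand (-1 : ℝ) fW gW
    rw [neg_one_smul, ← sub_eq_add_neg] at this
    rw [this]; norm_num
  have e3 : C.Γ (f + g) (C.lap (f + g)) = C.Γ f (C.lap f) + C.Γ f (C.lap g)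
      + (C.Γ g (C.lap f) + C.Γ g (C.lap g)) := by
    rw [l1, hD.add_left _ fW _ gW _ (hD.add_mem _ lf _ lg), hD.Γ_add_right fW lf lg,
      hD.Γ_add_right gW lf lg]
  have e4 : C.Γ (f - g) (C.lap (f - g)) = C.Γ f (C.lap f) - C.Γ f (C.lap g)
      - (C.Γ g (C.lap f) - C.Γ g (C.lap g)) := by
    rw [l2, hD.Γ_sub_left fW gW (hD.sub_mem lf lg), hD.Γ_sub_right fW lf lg,
      hD.Γ_sub_right gW lf lg]
  have n : ∀ {p q : M →ₘ[m] ℝ}, p ∈ C.W → q ∈ C.W → MemLp (ρ * C.Γ p q) 1 m := fun hp hq =>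
    mem_mul_top hρ (hD.Γ_mem1 hp hq)
  have n' : ∀ {p q : M →ₘ[m] ℝ}, p ∈ C.W → q ∈ C.W → MemLp (C.Γ p q) 1 m := fun hp hq =>
    hD.Γ_mem1 hp hq
  have i1 : I (C.Γ (C.Γ (f + g) (f + g)) (ρ - 1)) = I (C.Γ (C.Γ f f) (ρ - 1))
      + 2 * I (C.Γ (C.Γ f g) (ρ - 1)) + I (C.Γ (C.Γ g g) (ρ - 1)) := by
    rw [e1, hD.add_left _ (hD.add_mem _ ff _ (hD.smul_mem _ _ fg)) _ gg _ rW,
      hD.add_left _ ff _ (hD.smul_mem _ _ fg) _ rW, hD.smul_left _ _ fg _ rW,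
      I_add (mem_add (n' ff rW) (mem_smul _ (n' fg rW))) (n' gg rW),
      I_add (n' ff rW) (mem_smul _ (n' fg rW)), I_smul]
  have i2 : I (C.Γ (C.Γ (f - g) (f - g)) (ρ - 1)) = I (C.Γ (C.Γ f f) (ρ - 1))
      - 2 * I (C.Γ (C.Γ f g) (ρ - 1)) + I (C.Γ (C.Γ g g) (ρ - 1)) := by
    rw [e2, hD.add_left _ (hD.add_mem _ ff _ (hD.smul_mem _ _ fg)) _ gg _ rW,
      hD.add_left _ ff _ (hD.smul_mem _ _ fg) _ rW, hD.smul_left _ _ fg _ rW,
      I_add (mem_add (n' ff rW) (mem_smul _ (n' fg rW))) (n' gg rW),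
      I_add (n' ff rW) (mem_smul _ (n' fg rW)), I_smul]
    ring
  have i3 : I (ρ * C.Γ (f + g) (C.lap (f + g))) = I (ρ * C.Γ f (C.lap f))
      + I (ρ * C.Γ f (C.lap g)) + (I (ρ * C.Γ g (C.lap f)) + I (ρ * C.Γ g (C.lap g))) := by
    rw [e3, mul_add, mul_add, mul_add, I_add (mem_add (n fW lf) (n fW lg))
      (mem_add (n gW lf) (n gW lg)), I_add (n fW lf) (n fW lg), I_add (n gW lf) (n gW lg)]
  have i4 : I (ρ * C.Γ (f - g) (C.lap (f - g))) = I (ρ * C.Γ f (C.lap f))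
      - I (ρ * C.Γ f (C.lap g)) - (I (ρ * C.Γ g (C.lap f)) - I (ρ * C.Γ g (C.lap g))) := by
    rw [e4, mul_sub, mul_sub, mul_sub, I_sub (mem_sub (n fW lf) (n fW lg))
      (mem_sub (n gW lf) (n gW lg)), I_sub (n fW lf) (n fW lg), I_sub (n gW lf) (n gW lg)]
  unfold Calc.G2
  rw [i1, i2, i3, i4]
  ring

end

end H66

theorem IsGamma.test_sub' (hC : IsGamma C) {κ : ℝ} (hB : C.BEi κ) {f g : M →ₘ[m] ℝ}
    (hf : f ∈ C.Test) (hg : g ∈ C.Test) : f - g ∈ C.Test := by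
  have := hC.test_add hB hf (hC.test_smul hB (-1) hg)
  rwa [neg_one_smul, ← sub_eq_add_neg] at this

open H66

theorem blk_B1_of (h0 : Blk_B0r.{u}) : Blk_B1.{u} := by
  intro M _ m _ C K hC hB ε a b φ u h
  have hD := hC.toIsDir
  obtain ⟨q1, q2, q3, q4, B, qb⟩ := h0 M m C K hC hB ε a b φ u h
  obtain ⟨Λ, hΛ⟩ := h.bdd
  have hne := h.hε.ne'
  have hSt : ∀ t ∈ Icc a b, St C ε (φ t) (u t) (rh ε φ u t) := fun t ht =>
    ⟨h.hε, h.φ_mem t ht, h.u_mem t ht, (q1 t ht).2.2.1, (q1 t ht).2.2.2.1⟩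
  have φT := fun t ht => (h.φ_mem t ht).1
  have uT := fun t ht => (h.u_mem t ht).1
  have LT := fun t ht => (q1 t ht).1.1
  have θT := fun t ht => (q1 t ht).2.1.1
  have rT := fun t ht => (q1 t ht).2.2.1.1
  have φW := fun t ht => (hC.test_A (φT t ht)).1
  have uW := fun t ht => (hC.test_A (uT t ht)).1
  have LW := fun t ht => (hC.test_A (LT t ht)).1
  have θW := fun t ht => (hC.test_A (θT t ht)).1
  have rW := fun t ht => (hC.test_A (rT t ht)).1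
  -- the derivatives
  have dφW : ∀ t ∈ Icc a b, -((ε / 2) • C.lap (φ t)) - (2 : ℝ)⁻¹ • C.Γ (φ t) (φ t) ∈ C.W :=
    fun t ht => hD.sub_mem (hD.neg_mem (hD.smul_mem _ _ (hC.test_lap_mem (φT t ht))))
      (hD.smul_mem _ _ (hC.Γ_mem hB (φT t ht) (φT t ht)).1)
  have duW : ∀ t ∈ Icc a b, (ε / 2) • C.lap (u t) - (2 : ℝ)⁻¹ • C.Γ (u t) (u t) ∈ C.W :=
    fun t ht => hD.sub_mem (hD.smul_mem _ _ (hC.test_lap_mem (uT t ht)))
      (hD.smul_mem _ _ (hC.Γ_mem hB (uT t ht) (uT t ht)).1)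
  have Dφ : ∀ t (ht : t ∈ Icc a b), C.DW φ (-((ε / 2) • C.lap (φ t)) - (2 : ℝ)⁻¹ • C.Γ (φ t) (φ t))
      (Icc a b) t := fun t ht => hD.DW_of_DerW (h.dφ t ht) (φW t ht) φW (dφW t ht)
  have Du : ∀ t (ht : t ∈ Icc a b), C.DW u ((ε / 2) • C.lap (u t) - (2 : ℝ)⁻¹ • C.Γ (u t) (u t))
      (Icc a b) t := fun t ht => hD.DW_of_DerW (h.du t ht) (uW t ht) uW (duW t ht)
  -- the density
  have ρt : ∀ t (ht : t ∈ Icc a b), MemLp (rh ε φ u t) ∞ m := fun t ht => (hSt t ht).top hC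
  have ρ' : ∀ t (ht : t ∈ Icc a b), MemLp (-(rh ε φ u t * C.lap (th φ u t)
      + C.Γ (th φ u t) (rh ε φ u t - 1)) : M →ₘ[m] ℝ) 2 m := fun t ht =>
    mem_neg (mem_add (mem_mul_top (ρt t ht) (hD.memLp _ (hC.test_lap_mem (θT t ht))))
      (hD.Γ_mem2 (θW t ht) (hC.test_Γ_top (θT t ht)) (rW t ht)))
  have Dρ : ∀ t (ht : t ∈ Icc a b), DL2 (rh ε φ u) (-(rh ε φ u t * C.lap (th φ u t)
      + C.Γ (th φ u t) (rh ε φ u t - 1))) (Icc a b) t := by
    intro t ht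
    have e : ∀ r, rh ε φ u r - rh ε φ u t = (rh ε φ u r - 1) - (rh ε φ u t - 1) := fun r => by abel
    have mW : ∀ r ∈ Icc a b, rh ε φ u r - rh ε φ u t ∈ C.W := fun r hr => by
      rw [e]; exact hD.sub_mem (rW r hr) (rW t ht)
    refine ⟨fun r hr => hD.memLp _ (mW r hr), ρ' t ht, ?_⟩
    have := q2 t ht
    refine squeeze_zero' (Eventually.of_forall fun r => I_sq_nonneg _) ?_ this
    filter_upwards [self_mem_nhdsWithin] with r hr
    unfold Calc.nrm2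
    have : 0 ≤ I (C.Γ ((r - t)⁻¹ • (rh ε φ u r - rh ε φ u t)
        - -(rh ε φ u t * C.lap (th φ u t) + C.Γ (th φ u t) (rh ε φ u t - 1)))
        ((r - t)⁻¹ • (rh ε φ u r - rh ε φ u t)
        - -(rh ε φ u t * C.lap (th φ u t) + C.Γ (th φ u t) (rh ε φ u t - 1)))) := by
      refine hD.E_nonneg (hD.sub_mem (hD.smul_mem _ _ (mW r hr.1)) (hD.neg_mem
        (hD.add_mem _ ?_ _ (hC.Γ_mem hB (θT t ht) (rT t ht)).1)))
      have e2 : rh ε φ u t * C.lap (th φ u t) = C.lap (th φ u t)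
          + (rh ε φ u t - 1) * C.lap (th φ u t) := by ring
      rw [e2]
      exact hD.add_mem _ (hC.test_lap_mem (θT t ht)) _
        (hD.mul_mem_lip (hC.test_A (rT t ht)) (hC.test_Γ_top (rT t ht))
          (hC.test_lap_mem (θT t ht)))
    linarith
  have Bρ : BdS (rh ε φ u) (Icc a b) := by
    refine ⟨B, fun t ht => ?_⟩
    filter_upwards [qb t ht, ex_ae' (ε⁻¹ • (φ t - u t))] with x hx hx'
    have h1 : 0 < rh ε φ u t x := by
      unfold rh; rw [hx']; exact Real.exp_pos _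
    rw [abs_of_pos h1]
    exact hx.2.1
  have Gφ : C.BdG φ (Icc a b) := ⟨Λ, fun t ht => by
    filter_upwards [hΛ t ht] with x hx using hx.2.2.1⟩
  have Gu : C.BdG u (Icc a b) := ⟨Λ, fun t ht => by
    filter_upwards [hΛ t ht] with x hx using hx.2.2.2.1⟩
  have hEA : ∀ t ∈ Icc a b, HasDerivWithinAt (C.EA ε φ u) (ε * C.G2 (φ t) (rh ε φ u t))
      (Icc a b) t := by
    intro t ht
    have := hD.I_aΓ (Dρ t ht) Bρ (Dφ t ht) (Dφ t ht) ht (φW t ht) (φW t ht) Gφ Gφ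
    exact this.congr_deriv (st_A hC hB (hSt t ht))
  have hEB : ∀ t ∈ Icc a b, HasDerivWithinAt (C.EB ε φ u) (-(ε * C.G2 (u t) (rh ε φ u t)))
      (Icc a b) t := by
    intro t ht
    have := hD.I_aΓ (Dρ t ht) Bρ (Du t ht) (Du t ht) ht (uW t ht) (uW t ht) Gu Gu
    exact this.congr_deriv (st_B hC hB (hSt t ht))
  have hED : ∀ t ∈ Icc a b, HasDerivWithinAt (fun t => I (rh ε φ u t * C.Γ (φ t) (u t))) 0
      (Icc a b) t := by
    intro t ht
    have := hD.I_aΓ (Dρ t ht) Bρ (Dφ t ht) (Du t ht) ht (φW t ht) (uW t ht) Gφ Gu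
    exact this.congr_deriv (st_D hC hB (hSt t ht))
  have DLW : ∀ t (ht : t ∈ Icc a b), C.DW (LL ε φ u)
      (ε⁻¹ • (-((ε / 2) • C.lap (φ t)) - (2 : ℝ)⁻¹ • C.Γ (φ t) (φ t)
        - ((ε / 2) • C.lap (u t) - (2 : ℝ)⁻¹ • C.Γ (u t) (u t)))) (Icc a b) t :=
    fun t ht => hD.DW_smul ε⁻¹ (hD.DW_sub (Dφ t ht) (Du t ht))
  have gradL : C.BdG (LL ε φ u) (Icc a b) := by
    have h1 : C.BdG (fun r => φ r + (-1 : ℝ) • u r) (Icc a b) :=
      hD.BdG_add Gφ (hD.BdG_smul (-1) Gu uW) φW fun r hr => hD.smul_mem _ _ (uW r hr)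
    have h2 := hD.BdG_smul ε⁻¹ h1 fun r hr => hD.add_mem _ (φW r hr) _ (hD.smul_mem _ _ (uW r hr))
    have e : (fun r => ε⁻¹ • (φ r + (-1 : ℝ) • u r)) = LL ε φ u := by
      funext r; unfold LL; rw [neg_one_smul, sub_eq_add_neg]
    rwa [e] at h2
  have cG2 : ∀ (f : ℝ → M →ₘ[m] ℝ) (fT : ∀ t ∈ Icc a b, f t ∈ C.Test) {t : ℝ} (ht : t ∈ Icc a b)
      {f' : M →ₘ[m] ℝ}, C.DW f f' (Icc a b) t → C.BdG f (Icc a b) →
      C.CtW (Icc a b) (fun s => C.lap (f s)) t →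
      ContinuousWithinAt (fun t => C.G2 (f t) (rh ε φ u t)) (Icc a b) t := by
    intro f fT t ht f' Df Gf cf
    have fW := fun t ht => (hC.test_A (fT t ht)).1
    have e : ∀ s ∈ Icc a b, C.G2 (f s) (rh ε φ u s) =
        (2 : ℝ)⁻¹ * I (C.lap (rh ε φ u s - 1) * C.Γ (f s) (f s))
          - I (rh ε φ u s * C.Γ (f s) (C.lap (f s))) := by
      intro s hs
      have gW := (hC.Γ_mem hB (fT s hs) (fT s hs)).1
      have h1 := (hC.test_isLap (rT s hs)).2.2 _ gW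
      change I (C.Γ (rh ε φ u s - 1) (C.Γ (f s) (f s)))
        = -I (C.lap (rh ε φ u s - 1) * C.Γ (f s) (f s)) at h1
      unfold Calc.G2
      rw [hD.symm _ gW _ (rW s hs), h1]
      ring
    refine ContinuousWithinAt.congr ?_ e (e t ht)
    refine contWithin_of_sq fun r hr => ?_
    have h1 := hD.DW_tw Df (fW t ht) hr
    obtain ⟨K1, hK1⟩ := Gf
    have h2 := hD.TW_Γ2 h1 ⟨K1, fun n => hK1 _ (hr.mem n)⟩ h1
    have h3 := hD.TW_T2 (hD.TW_of_CtW (q4 t ht) (hC.test_lap_mem (rT t ht))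
      (fun s hs => hC.test_lap_mem (rT s hs)) hr)
    have h4 := hD.TW_of_CtW cf (hC.test_lap_mem (fT t ht))
      (fun s hs => hC.test_lap_mem (fT s hs)) hr
    have h5 := ((h3.mul h2).I_lim).const_mul (2 : ℝ)⁻¹
    exact h5.sub (((Dρ t ht).tm Bρ hr).mul1 (hD.TW_Γ1 h1 h4)).I_lim
  refine ⟨hEA, hEB, ?_, ?_, ?_, ?_, ?_, ?_, ?_, ?_⟩
  · -- conservation
    have hdiff : DifferentiableOn ℝ (fun t => I (rh ε φ u t * C.Γ (φ t) (u t))) (Icc a b) :=
      fun t ht => (hED t ht).differentiableWithinAt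
    have hc := constant_of_derivWithin_zero hdiff fun t ht => by
      have ht' : t ∈ Icc a b := ⟨ht.1, ht.2.le⟩
      exact (hED t ht').derivWithin ((uniqueDiffOn_Icc h.hab) t ht')
    intro t ht
    rw [hc t ht, hc b ⟨h.hab.le, le_rfl⟩]
  · -- entropy
    intro t ht
    have DL : DL2 (LL ε φ u) (ε⁻¹ • (-((ε / 2) • C.lap (φ t)) - (2 : ℝ)⁻¹ • C.Γ (φ t) (φ t)
        - ((ε / 2) • C.lap (u t) - (2 : ℝ)⁻¹ • C.Γ (u t) (u t)))) (Icc a b) t :=
      hD.DW_DL2 (hD.DW_smul ε⁻¹ (hD.DW_sub (Dφ t ht) (Du t ht)))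
    set L' := ε⁻¹ • (-((ε / 2) • C.lap (φ t)) - (2 : ℝ)⁻¹ • C.Γ (φ t) (φ t)
        - ((ε / 2) • C.lap (u t) - (2 : ℝ)⁻¹ • C.Γ (u t) (u t))) with hL'
    have Dr : DL2 (fun r => rh ε φ u r - 1) (-(rh ε φ u t * C.lap (th φ u t)
        + C.Γ (th φ u t) (rh ε φ u t - 1))) (Icc a b) t := by
      simpa [sub_eq_add_neg] using (Dρ t ht).add_const (-1)
    have L2 : ∀ r ∈ Icc a b, MemLp (LL ε φ u r) 2 m := fun r hr => hD.memLp _ (LW r hr)
    have r2 : ∀ r ∈ Icc a b, MemLp (rh ε φ u r - 1 : M →ₘ[m] ℝ) 2 m := fun r hr =>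
      hD.memLp _ (rW r hr)
    have bL : BdS (LL ε φ u) (Icc a b) := by
      refine ⟨|ε⁻¹| * (Λ + Λ), fun r hr => ?_⟩
      filter_upwards [hΛ r hr, smul_ae (φ r - u r) ε⁻¹, sub_ae (φ r) (u r)] with x h1 h2 h3
      unfold LL
      rw [h2, h3, abs_mul]
      exact mul_le_mul_of_nonneg_left ((abs_sub _ _).trans (add_le_add h1.1 h1.2.1)) (abs_nonneg _)
    obtain ⟨mH, DH⟩ := DL1_H DL ht bL (L2 t ht) r2
    have DF := (Dr.mul_L1 DL (r2 t ht) (L2 t ht)).add DH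
    have e : EntB m ε φ u = fun r => I ((rh ε φ u r - 1) * LL ε φ u r
        + (LL ε φ u r - (ex (LL ε φ u r) - 1))) := by
      funext r
      unfold EntB
      congr 1
      change rh ε φ u r * LL ε φ u r - (rh ε φ u r - 1) = (rh ε φ u r - 1) * LL ε φ u r
        + (LL ε φ u r - (rh ε φ u r - 1))
      ring
    rw [e]
    have hfin := DF.I_hasDeriv (fun r hr => mem_add (mem_mul_22 (r2 r hr) (L2 r hr)) (mH r hr))
      (mem_add (mem_mul_22 (r2 t ht) (L2 t ht)) (mH t ht))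
    refine hfin.congr_deriv ?_
    have e2 : -(rh ε φ u t * C.lap (th φ u t) + C.Γ (th φ u t) (rh ε φ u t - 1)) * LL ε φ u t
        + (rh ε φ u t - 1) * L' + -((ex (LL ε φ u t) - 1) * L')
        = -((rh ε φ u t * C.lap (th φ u t) + C.Γ (th φ u t) (rh ε φ u t - 1)) * LL ε φ u t) := by
      change -(rh ε φ u t * C.lap (th φ u t) + C.Γ (th φ u t) (rh ε φ u t - 1)) * LL ε φ u t
        + (rh ε φ u t - 1) * L' + -((rh ε φ u t - 1) * L') = _
      ring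
    rw [e2, I_neg, ibp hC hB (θT t ht) (rT t ht) (LW t ht), neg_neg]
    have s1 := I_ρΓ_lin hC (ρt t ht) (2⁻¹ : ℝ) (2⁻¹ : ℝ) (f := th φ u t) (f1 := φ t) (f2 := u t)
      (g := LL ε φ u t) (by unfold th; rw [smul_add]) (φW t ht) (uW t ht) (LW t ht)
    have s2 := I_ρΓ_lin hC (ρt t ht) ε⁻¹ (-ε⁻¹) (f := LL ε φ u t) (f1 := φ t) (f2 := u t)
      (g := φ t) (by unfold LL; rw [smul_sub, neg_smul, sub_eq_add_neg]) (φW t ht) (uW t ht)
      (φW t ht)
    have s3 := I_ρΓ_lin hC (ρt t ht) ε⁻¹ (-ε⁻¹) (f := LL ε φ u t) (f1 := φ t) (f2 := u t)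
      (g := u t) (by unfold LL; rw [smul_sub, neg_smul, sub_eq_add_neg]) (φW t ht) (uW t ht)
      (uW t ht)
    have s4 := symI hC (ρ := rh ε φ u t) (φW t ht) (LW t ht)
    have s5 := symI hC (ρ := rh ε φ u t) (uW t ht) (LW t ht)
    have s6 := symI hC (ρ := rh ε φ u t) (φW t ht) (uW t ht)
    rw [s1, s4, s5, s2, s3]
    unfold Calc.EA Calc.EB
    rw [s6]
    field_simp
    ring
  · -- continuity of `G2 φ ρ`
    exact fun t ht => cG2 φ φT ht (Dφ t ht) Gφ (h.cφ t ht)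
  · exact fun t ht => cG2 u uT ht (Du t ht) Gu (h.cu t ht)
  · intro t ht
    refine contWithin_of_sq fun r hr => ?_
    have h1 := hD.DW_tw (DLW t ht) (LW t ht) hr
    exact (((Dρ t ht).tm Bρ hr).mul1 (hD.TW_Γ1 h1 h1)).I_lim
  · intro t ht
    refine contWithin_of_sq fun r hr => ?_
    have h1 := hD.DW_tw (DLW t ht) (LW t ht) hr
    obtain ⟨K1, hK1⟩ := gradL
    have h2 := hD.TW_Γ2 h1 ⟨K1, fun n => hK1 _ (hr.mem n)⟩ h1
    have h3 := (((Dρ t ht).tm Bρ hr).mul1 (h2.mul h2)).I_lim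
    unfold Calc.EV4
    simpa only [sq] using h3
  · -- `ε² E|V|²`
    intro t ht
    have s2 := I_ρΓ_lin hC (ρt t ht) ε⁻¹ (-ε⁻¹) (f := LL ε φ u t) (f1 := φ t) (f2 := u t)
      (g := LL ε φ u t) (by unfold LL; rw [smul_sub, neg_smul, sub_eq_add_neg]) (φW t ht) (uW t ht)
      (LW t ht)
    have s3 := I_ρΓ_lin hC (ρt t ht) ε⁻¹ (-ε⁻¹) (f := LL ε φ u t) (f1 := φ t) (f2 := u t)
      (g := φ t) (by unfold LL; rw [smul_sub, neg_smul, sub_eq_add_neg]) (φW t ht) (uW t ht)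
      (φW t ht)
    have s4 := I_ρΓ_lin hC (ρt t ht) ε⁻¹ (-ε⁻¹) (f := LL ε φ u t) (f1 := φ t) (f2 := u t)
      (g := u t) (by unfold LL; rw [smul_sub, neg_smul, sub_eq_add_neg]) (φW t ht) (uW t ht)
      (uW t ht)
    have s5 := symI hC (ρ := rh ε φ u t) (φW t ht) (LW t ht)
    have s6 := symI hC (ρ := rh ε φ u t) (uW t ht) (LW t ht)
    have s7 := symI hC (ρ := rh ε φ u t) (uW t ht) (φW t ht)
    unfold Calc.EV Calc.EA Calc.EB
    rw [s2, s5, s6, s3, s4, s7]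
    field_simp
    ring
  · -- the parallelogram law
    intro t ht
    have p := G2_parallel hC hB (ρt t ht) (rT t ht) (φT t ht) (uT t ht)
    have p1 := G2_smul hC hB (ρt t ht) (rT t ht) (2⁻¹ : ℝ) (hC.test_add hB (φT t ht) (uT t ht))
    have p2 := G2_smul hC hB (ρt t ht) (rT t ht) ε⁻¹ (hC.test_sub' hB (φT t ht) (uT t ht))
    unfold th LL
    rw [p1, p2]
    field_simp
    linarith

end Vale.Agent.P233
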