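import Vale.Agent.P233.Gig.IfB
import Vale.Agent.P233.H66.Time3

/-!
P233, block B1, static identities (one fixed time).
-/

set_option linter.all false

open MeasureTheory Filter Topology Set
open scoped ENNReal NNReal InnerProductSpace

namespace Vale.Agent.P233

variable {M : Type*} [MeasurableSpace M] {m : Measure M} {C : Calc m}

namespace H66

/-- the static data of a pair at one time -/
structure St (C : Calc m) (ε : ℝ) (φ u ρ : M →ₘ[m] ℝ) : Prop where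
  hε : 0 < ε
  φ_mem : φ ∈ C.TestI
  u_mem : u ∈ C.TestI
  r_mem : ρ - 1 ∈ C.TestI
  rΓ : ∀ g ∈ C.W, C.Γ (ρ - 1) g = ρ * C.Γ (ε⁻¹ • (φ - u)) g

section

variable {ε : ℝ} {φ u ρ : M →ₘ[m] ℝ}

theorem St.top (hC : IsGamma C) (h : St C ε φ u ρ) : MemLp ρ ∞ m := by
  have h1 := (hC.test_A h.r_mem.1).2
  have := mem_add h1 mem_top_one
  simpa using this

/-- integration by parts with the weight `ρ` -/
theorem ibp (hC : IsGamma C) {κ : ℝ} (hB : C.BEi κ) {θ w ρ : M →ₘ[m] ℝ} (hθ : θ ∈ C.Test)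
    (hρ : ρ - 1 ∈ C.Test) (hw : w ∈ C.W) :
    I ((ρ * C.lap θ + C.Γ θ (ρ - 1)) * w) = -I (ρ * C.Γ θ w) := by
  have hD := hC.toIsDir
  have θA := hC.test_A hθ
  have rA := hC.test_A hρ
  have rG := hC.test_Γ_top hρ
  have hρt : MemLp ρ ∞ m := by simpa using mem_add rA.2 (mem_top_one (m := m))
  have hL := hC.test_isLap hθ
  have hw2 := hD.memLp w hw
  have hrw : (ρ - 1) * w ∈ C.W := hD.mul_mem_lip rA rG hw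
  have e1 := hL.2.2 _ hrw
  have e2 := hL.2.2 _ hw
  have e3 : C.Γ θ ((ρ - 1) * w) = (ρ - 1) * C.Γ θ w + w * C.Γ θ (ρ - 1) := by
    rw [hD.symm _ θA.1 _ hrw, hD.Γ_mul_left_lip rA rG hw θA.1, hD.symm _ hw _ θA.1,
      hD.symm _ rA.1 _ θA.1]
  change I (C.Γ θ ((ρ - 1) * w)) = -I (C.lap θ * ((ρ - 1) * w)) at e1
  change I (C.Γ θ w) = -I (C.lap θ * w) at e2
  have m1 : MemLp (C.Γ θ w) 1 m := hD.Γ_mem1 θA.1 hw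
  have m2 : MemLp ((ρ - 1) * C.Γ θ w : M →ₘ[m] ℝ) 1 m := mem_mul_top rA.2 m1
  have m3 : MemLp (w * C.Γ θ (ρ - 1) : M →ₘ[m] ℝ) 1 m :=
    mem_mul_22 hw2 (hD.Γ_mem2 θA.1 (hC.test_Γ_top hθ) rA.1)
  have m4 : MemLp (C.lap θ * w : M →ₘ[m] ℝ) 1 m := mem_mul_22 hL.2.1 hw2
  have m5 : MemLp (C.lap θ * ((ρ - 1) * w) : M →ₘ[m] ℝ) 1 m :=
    mem_mul_22 hL.2.1 (mem_mul_top rA.2 hw2)
  rw [e3, I_add m2 m3] at e1
  have e4 : (ρ * C.lap θ + C.Γ θ (ρ - 1)) * w = C.lap θ * w + C.lap θ * ((ρ - 1) * w)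
      + w * C.Γ θ (ρ - 1) := by ring
  have e5 : ρ * C.Γ θ w = C.Γ θ w + (ρ - 1) * C.Γ θ w := by ring
  rw [e4, e5, I_add (mem_add m4 m5) m3, I_add m4 m5, I_add m1 m2]
  linarith

end

/-- linear combinations inside the weighted integrals -/
theorem I_ρΓ_lin (hC : IsGamma C) {ρ f f1 f2 g : M →ₘ[m] ℝ} (hρ : MemLp ρ ∞ m) (c1 c2 : ℝ)
    (hf : f = c1 • f1 + c2 • f2) (h1 : f1 ∈ C.W) (h2 : f2 ∈ C.W) (hg : g ∈ C.W) :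
    I (ρ * C.Γ f g) = c1 * I (ρ * C.Γ f1 g) + c2 * I (ρ * C.Γ f2 g) := by
  have hD := hC.toIsDir
  subst hf
  rw [hD.add_left _ (hD.smul_mem _ _ h1) _ (hD.smul_mem _ _ h2) _ hg, hD.smul_left _ _ h1 _ hg,
    hD.smul_left _ _ h2 _ hg, mul_add, I_add (mem_mul_top hρ (mem_smul _ (hD.Γ_mem1 h1 hg)))
    (mem_mul_top hρ (mem_smul _ (hD.Γ_mem1 h2 hg))), mul_smul_comm, mul_smul_comm, I_smul, I_smul]

theorem symI (hC : IsGamma C) {ρ f g : M →ₘ[m] ℝ} (hf : f ∈ C.W) (hg : g ∈ C.W) :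
    I (ρ * C.Γ f g) = I (ρ * C.Γ g f) := by
  rw [hC.symm _ hf _ hg]

section

variable (hC : IsGamma C) {κ : ℝ} (hB : C.BEi κ)
variable {ε : ℝ} {φ u ρ : M →ₘ[m] ℝ}

include hC hB

/-- derivative of `E|∇φ|²` -/
theorem st_A (h : St C ε φ u ρ) :
    I ((-(ρ * C.lap ((2 : ℝ)⁻¹ • (φ + u)) + C.Γ ((2 : ℝ)⁻¹ • (φ + u)) (ρ - 1))) * C.Γ φ φ)
      + I (ρ * C.Γ (-((ε / 2) • C.lap φ) - (2 : ℝ)⁻¹ • C.Γ φ φ) φ)
      + I (ρ * C.Γ φ (-((ε / 2) • C.lap φ) - (2 : ℝ)⁻¹ • C.Γ φ φ)) = ε * C.G2 φ ρ := by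
  have hD := hC.toIsDir
  have hρ := h.top hC
  have φT := h.φ_mem.1
  have uT := h.u_mem.1
  have φW := (hC.test_A φT).1
  have uW := (hC.test_A uT).1
  have lW := hC.test_lap_mem φT
  have GW := (hC.Γ_mem hB φT φT).1
  have θT : (2 : ℝ)⁻¹ • (φ + u) ∈ C.Test := hC.test_smul hB _ (hC.test_add hB φT uT)
  have θW := (hC.test_A θT).1
  have LW : ε⁻¹ • (φ - u) ∈ C.W := hD.smul_mem _ _ (hD.sub_mem φW uW)
  have rW := (hC.test_A h.r_mem.1).1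
  have dW : -((ε / 2) • C.lap φ) - (2 : ℝ)⁻¹ • C.Γ φ φ ∈ C.W :=
    hD.sub_mem (hD.neg_mem (hD.smul_mem _ _ lW)) (hD.smul_mem _ _ GW)
  have e1 : I ((-(ρ * C.lap ((2 : ℝ)⁻¹ • (φ + u)) + C.Γ ((2 : ℝ)⁻¹ • (φ + u)) (ρ - 1)))
      * C.Γ φ φ) = I (ρ * C.Γ ((2 : ℝ)⁻¹ • (φ + u)) (C.Γ φ φ)) := by
    rw [neg_mul, I_neg, ibp hC hB θT h.r_mem.1 GW, neg_neg]
  have e2 := I_ρΓ_lin hC hρ (-(ε / 2)) (-(2 : ℝ)⁻¹)
    (f := -((ε / 2) • C.lap φ) - (2 : ℝ)⁻¹ • C.Γ φ φ) (f1 := C.lap φ) (f2 := C.Γ φ φ)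
    (by rw [neg_smul, neg_smul, sub_eq_add_neg]) lW GW φW
  have e3 := symI hC (ρ := ρ) φW dW
  have e4 := I_ρΓ_lin hC hρ (1 : ℝ) (-(ε / 2)) (f := (2 : ℝ)⁻¹ • (φ + u)) (f1 := φ)
    (f2 := ε⁻¹ • (φ - u)) (by
      have := h.hε.ne'
      rw [smul_smul, show -(ε / 2) * ε⁻¹ = -(1 / 2 : ℝ) by field_simp]
      module) φW LW GW
  have e5 : I (ρ * C.Γ (ε⁻¹ • (φ - u)) (C.Γ φ φ)) = I (C.Γ (C.Γ φ φ) (ρ - 1)) := by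
    rw [← h.rΓ _ GW, hD.symm _ rW _ GW]
  have e6 := symI hC (ρ := ρ) φW lW
  have e7 := symI hC (ρ := ρ) φW GW
  unfold Calc.G2
  rw [e3, e1, e2, e4, e5, e6, e7]
  ring

/-- derivative of `E|∇u|²` -/
theorem st_B (h : St C ε φ u ρ) :
    I ((-(ρ * C.lap ((2 : ℝ)⁻¹ • (φ + u)) + C.Γ ((2 : ℝ)⁻¹ • (φ + u)) (ρ - 1))) * C.Γ u u)
      + I (ρ * C.Γ ((ε / 2) • C.lap u - (2 : ℝ)⁻¹ • C.Γ u u) u)
      + I (ρ * C.Γ u ((ε / 2) • C.lap u - (2 : ℝ)⁻¹ • C.Γ u u)) = -(ε * C.G2 u ρ) := by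
  have hD := hC.toIsDir
  have hρ := h.top hC
  have φT := h.φ_mem.1
  have uT := h.u_mem.1
  have φW := (hC.test_A φT).1
  have uW := (hC.test_A uT).1
  have lW := hC.test_lap_mem uT
  have GW := (hC.Γ_mem hB uT uT).1
  have θT : (2 : ℝ)⁻¹ • (φ + u) ∈ C.Test := hC.test_smul hB _ (hC.test_add hB φT uT)
  have θW := (hC.test_A θT).1
  have LW : ε⁻¹ • (φ - u) ∈ C.W := hD.smul_mem _ _ (hD.sub_mem φW uW)
  have rW := (hC.test_A h.r_mem.1).1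
  have dW : (ε / 2) • C.lap u - (2 : ℝ)⁻¹ • C.Γ u u ∈ C.W :=
    hD.sub_mem (hD.smul_mem _ _ lW) (hD.smul_mem _ _ GW)
  have e1 : I ((-(ρ * C.lap ((2 : ℝ)⁻¹ • (φ + u)) + C.Γ ((2 : ℝ)⁻¹ • (φ + u)) (ρ - 1)))
      * C.Γ u u) = I (ρ * C.Γ ((2 : ℝ)⁻¹ • (φ + u)) (C.Γ u u)) := by
    rw [neg_mul, I_neg, ibp hC hB θT h.r_mem.1 GW, neg_neg]
  have e2 := I_ρΓ_lin hC hρ (ε / 2) (-(2 : ℝ)⁻¹)
    (f := (ε / 2) • C.lap u - (2 : ℝ)⁻¹ • C.Γ u u) (f1 := C.lap u) (f2 := C.Γ u u)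
    (by rw [neg_smul, sub_eq_add_neg]) lW GW uW
  have e3 := symI hC (ρ := ρ) uW dW
  have e4 := I_ρΓ_lin hC hρ (1 : ℝ) (ε / 2) (f := (2 : ℝ)⁻¹ • (φ + u)) (f1 := u)
    (f2 := ε⁻¹ • (φ - u)) (by
      have := h.hε.ne'
      rw [smul_smul, show (ε / 2) * ε⁻¹ = (1 / 2 : ℝ) by field_simp]
      module) uW LW GW
  have e5 : I (ρ * C.Γ (ε⁻¹ • (φ - u)) (C.Γ u u)) = I (C.Γ (C.Γ u u) (ρ - 1)) := by
    rw [← h.rΓ _ GW, hD.symm _ rW _ GW]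
  have e6 := symI hC (ρ := ρ) uW lW
  have e7 := symI hC (ρ := ρ) uW GW
  unfold Calc.G2
  rw [e3, e1, e2, e4, e5, e6, e7]
  ring

/-- conservation of `E⟨∇φ,∇u⟩` -/
theorem st_D (h : St C ε φ u ρ) :
    I ((-(ρ * C.lap ((2 : ℝ)⁻¹ • (φ + u)) + C.Γ ((2 : ℝ)⁻¹ • (φ + u)) (ρ - 1))) * C.Γ φ u)
      + I (ρ * C.Γ (-((ε / 2) • C.lap φ) - (2 : ℝ)⁻¹ • C.Γ φ φ) u)
      + I (ρ * C.Γ φ ((ε / 2) • C.lap u - (2 : ℝ)⁻¹ • C.Γ u u)) = 0 := by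
  have hD := hC.toIsDir
  have hρ := h.top hC
  have φT := h.φ_mem.1
  have uT := h.u_mem.1
  have rT := h.r_mem.1
  have φW := (hC.test_A φT).1
  have uW := (hC.test_A uT).1
  have rW := (hC.test_A rT).1
  have lφ := hC.test_lap_mem φT
  have lu := hC.test_lap_mem uT
  have Gφφ := hC.Γ_mem hB φT φT
  have Guu := hC.Γ_mem hB uT uT
  have Gφu := hC.Γ_mem hB φT uT
  have θT : (2 : ℝ)⁻¹ • (φ + u) ∈ C.Test := hC.test_smul hB _ (hC.test_add hB φT uT)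
  have LW : ε⁻¹ • (φ - u) ∈ C.W := hD.smul_mem _ _ (hD.sub_mem φW uW)
  have ne := h.hε.ne'
  -- the first term
  have e1 : I ((-(ρ * C.lap ((2 : ℝ)⁻¹ • (φ + u)) + C.Γ ((2 : ℝ)⁻¹ • (φ + u)) (ρ - 1)))
      * C.Γ φ u) = I (ρ * C.Γ ((2 : ℝ)⁻¹ • (φ + u)) (C.Γ φ u)) := by
    rw [neg_mul, I_neg, ibp hC hB θT rT Gφu.1, neg_neg]
  have e1' := I_ρΓ_lin hC hρ (2⁻¹ : ℝ) (2⁻¹ : ℝ) (f := (2 : ℝ)⁻¹ • (φ + u)) (f1 := φ) (f2 := u)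
    (by rw [smul_add]) φW uW Gφu.1
  have e2 := I_ρΓ_lin hC hρ (-(ε / 2)) (-(2 : ℝ)⁻¹)
    (f := -((ε / 2) • C.lap φ) - (2 : ℝ)⁻¹ • C.Γ φ φ) (f1 := C.lap φ) (f2 := C.Γ φ φ)
    (by rw [neg_smul, neg_smul, sub_eq_add_neg]) lφ Gφφ.1 uW
  have e3 := I_ρΓ_lin hC hρ (ε / 2) (-(2 : ℝ)⁻¹)
    (f := (ε / 2) • C.lap u - (2 : ℝ)⁻¹ • C.Γ u u) (f1 := C.lap u) (f2 := C.Γ u u)
    (by rw [neg_smul, sub_eq_add_neg]) lu Guu.1 φW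
  have e3' := symI hC (ρ := ρ) φW
    (hD.sub_mem (hD.smul_mem (ε / 2) _ lu) (hD.smul_mem (2 : ℝ)⁻¹ _ Guu.1))
  -- integrations by parts
  have p1 := ibp hC hB uT rT lφ
  have p2 := ibp hC hB φT rT lu
  have p3 := ibp hC hB φT rT Guu.1
  have p4 := ibp hC hB uT rT Gφφ.1
  have p5 := ibp hC hB φT rT Gφu.1
  have p6 := ibp hC hB uT rT Gφu.1
  -- `Γ(·, r)`
  have gr : ∀ {g : M →ₘ[m] ℝ}, g ∈ C.W → C.Γ g (ρ - 1) = ε⁻¹ • (ρ * (C.Γ g φ - C.Γ g u)) := by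
    intro g hg
    rw [hD.symm _ hg _ rW, h.rΓ g hg, hD.smul_left _ _ (hD.sub_mem φW uW) _ hg,
      hD.Γ_sub_left φW uW hg, hD.symm _ φW _ hg, hD.symm _ uW _ hg, mul_smul_comm]
  have hs : C.Γ u φ = C.Γ φ u := hD.symm _ uW _ φW
  rw [gr uW, hs] at p1 p4 p6
  rw [gr φW] at p2 p3 p5
  -- integrability
  have t1 : MemLp (C.Γ φ φ) ∞ m := Gφφ.2
  have t2 : MemLp (C.Γ u u) ∞ m := Guu.2
  have t3 : MemLp (C.Γ φ u) ∞ m := Gφu.2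
  have s1 : MemLp (C.Γ φ φ) 2 m := hD.memLp _ Gφφ.1
  have s2 : MemLp (C.Γ u u) 2 m := hD.memLp _ Guu.1
  have s3 : MemLp (C.Γ φ u) 2 m := hD.memLp _ Gφu.1
  have l1 : MemLp (C.lap φ) 2 m := hD.memLp _ lφ
  have l2 : MemLp (C.lap u) 2 m := hD.memLp _ lu
  have key : ∀ {a b c : M →ₘ[m] ℝ}, MemLp a 2 m → MemLp b ∞ m → MemLp b 2 m → MemLp c ∞ m →
      MemLp c 2 m → ∀ {w : M →ₘ[m] ℝ}, MemLp w 2 m →
      I ((ρ * a + ε⁻¹ • (ρ * (b - c))) * w)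
        = I (ρ * (a * w)) + ε⁻¹ * (I (ρ * (b * w)) - I (ρ * (c * w))) := by
    intro a b c ha hb hb2 hc hc2 w hw
    have m1 : MemLp (ρ * (a * w) : M →ₘ[m] ℝ) 1 m := mem_mul_top hρ (mem_mul_22 ha hw)
    have m2 : MemLp (ρ * (b * w) : M →ₘ[m] ℝ) 1 m := mem_mul_top hρ (mem_mul_22 hb2 hw)
    have m3 : MemLp (ρ * (c * w) : M →ₘ[m] ℝ) 1 m := mem_mul_top hρ (mem_mul_22 hc2 hw)
    have e : (ρ * a + ε⁻¹ • (ρ * (b - c))) * w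
        = ρ * (a * w) + ε⁻¹ • (ρ * (b * w) - ρ * (c * w)) := by
      rw [add_mul, smul_mul_assoc]
      congr 1
      · ring
      · congr 1; ring
    rw [e, I_add m1 (mem_smul _ (mem_sub m2 m3)), I_smul, I_sub m2 m3]
  rw [key l2 t3 s3 t2 s2 l1] at p1
  rw [key l1 t1 s1 t3 s3 l2] at p2
  rw [key l1 t1 s1 t3 s3 s2] at p3
  rw [key l2 t3 s3 t2 s2 s1] at p4
  rw [key l1 t1 s1 t3 s3 s3] at p5
  rw [key l2 t3 s3 t2 s2 s3] at p6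
  have q1 : I (ρ * C.Γ u (C.lap φ)) = I (ρ * C.Γ (C.lap φ) u) := symI hC uW lφ
  have q2 : I (ρ * C.Γ φ (C.lap u)) = I (ρ * C.Γ (C.lap u) φ) := symI hC φW lu
  have q3 : I (ρ * C.Γ φ (C.Γ u u)) = I (ρ * C.Γ (C.Γ u u) φ) := symI hC φW Guu.1
  have q4 : I (ρ * C.Γ u (C.Γ φ φ)) = I (ρ * C.Γ (C.Γ φ φ) u) := symI hC uW Gφφ.1
  rw [q1] at p1
  rw [q2] at p2
  rw [q3] at p3
  rw [q4] at p4
  rw [e1, e1', e2, e3', e3]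
  -- products
  have c1 : ρ * (C.lap u * C.lap φ) = ρ * (C.lap φ * C.lap u) := by ring
  have c2 : ρ * (C.lap φ * C.Γ u u) = ρ * (C.Γ u u * C.lap φ) := by ring
  have c3 : ρ * (C.lap u * C.Γ φ φ) = ρ * (C.Γ φ φ * C.lap u) := by ring
  have c4 : ρ * (C.lap φ * C.Γ φ u) = ρ * (C.Γ φ u * C.lap φ) := by ring
  have c5 : ρ * (C.lap u * C.Γ φ u) = ρ * (C.Γ φ u * C.lap u) := by ring
  have c6 : ρ * (C.Γ φ u * C.Γ u u) = ρ * (C.Γ u u * C.Γ φ u) := by ring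
  have c7 : ρ * (C.Γ φ u * C.Γ φ φ) = ρ * (C.Γ φ φ * C.Γ φ u) := by ring
  have c8 : ρ * (C.Γ u u * C.Γ φ φ) = ρ * (C.Γ φ φ * C.Γ u u) := by ring
  rw [c1] at p1
  rw [c2, c6] at p3
  rw [c3, c7, c8] at p4
  rw [c4] at p5
  rw [c5] at p6
  have p1' := congrArg (fun z => ε * z) p1
  have p2' := congrArg (fun z => ε * z) p2
  have i1 : ε * (I (ρ * (C.lap φ * C.lap u)) + ε⁻¹ * (I (ρ * (C.Γ φ u * C.lap φ))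
      - I (ρ * (C.Γ u u * C.lap φ)))) = ε * I (ρ * (C.lap φ * C.lap u))
      + (I (ρ * (C.Γ φ u * C.lap φ)) - I (ρ * (C.Γ u u * C.lap φ))) := by
    field_simp
  have i2 : ε * (I (ρ * (C.lap φ * C.lap u)) + ε⁻¹ * (I (ρ * (C.Γ φ φ * C.lap u))
      - I (ρ * (C.Γ φ u * C.lap u)))) = ε * I (ρ * (C.lap φ * C.lap u))
      + (I (ρ * (C.Γ φ φ * C.lap u)) - I (ρ * (C.Γ φ u * C.lap u))) := by
    field_simp
  rw [i1] at p1'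
  rw [i2] at p2'
  linear_combination (-1 / 2 : ℝ) * p1' + (1 / 2 : ℝ) * p2' - (1 / 2 : ℝ) * p3
    - (1 / 2 : ℝ) * p4 + (1 / 2 : ℝ) * p5 + (1 / 2 : ℝ) * p6

end

end H66

end Vale.Agent.P233
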