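import Vale.Agent.P233.Bd3.B4

/-!
Time calculus, part 1 (sequences): `L^1` convergence of classes and its rules.
-/

set_option linter.all false

open MeasureTheory Filter Topology
open scoped ENNReal NNReal

namespace Vale.Agent.P233

variable {M : Type*} [MeasurableSpace M] {m : Measure M} {C : Calc m}

/-- convergence in `L^1` -/
structure T1 (X : ℕ → M →ₘ[m] ℝ) (x : M →ₘ[m] ℝ) : Prop where
  mem : ∀ n, MemLp (X n) 1 m
  mem' : MemLp x 1 m
  lim : Tendsto (fun n => ∫ y, |(X n - x) y| ∂m) atTop (𝓝 0)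

section basic

variable {X Y : ℕ → M →ₘ[m] ℝ} {x y : M →ₘ[m] ℝ}

theorem abs_I_le (f : M →ₘ[m] ℝ) : |I f| ≤ ∫ y, |f y| ∂m := abs_integral_le_integral_abs

theorem intabs_nonneg (f : M →ₘ[m] ℝ) : 0 ≤ ∫ y, |f y| ∂m := integral_nonneg fun _ => abs_nonneg _

theorem intabs_add_le {f g : M →ₘ[m] ℝ} (hf : MemLp f 1 m) (hg : MemLp g 1 m) :
    ∫ y, |(f + g) y| ∂m ≤ ∫ y, |f y| ∂m + ∫ y, |g y| ∂m := by
  rw [← integral_add (int_of_mem hf).abs (int_of_mem hg).abs]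
  refine integral_mono_ae (int_of_mem (mem_add hf hg)).abs
    ((int_of_mem hf).abs.add (int_of_mem hg).abs) ?_
  filter_upwards [add_ae f g] with z h
  simp only [h, Pi.add_apply]
  exact abs_add_le _ _

theorem intabs_smul (c : ℝ) (f : M →ₘ[m] ℝ) : ∫ y, |(c • f) y| ∂m = |c| * ∫ y, |f y| ∂m := by
  rw [← integral_const_mul]
  refine integral_congr_ae ?_
  filter_upwards [smul_ae f c] with z h
  simp only [h, abs_mul]

theorem intabs_neg (f : M →ₘ[m] ℝ) : ∫ y, |(-f) y| ∂m = ∫ y, |f y| ∂m := by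
  refine integral_congr_ae ?_
  filter_upwards [neg_ae f] with z h
  simp only [h, abs_neg]

theorem intabs_mul_le {f g : M →ₘ[m] ℝ} (hf : MemLp f 2 m) (hg : MemLp g 2 m) :
    ∫ y, |(f * g) y| ∂m ≤ √(I (f ^ 2)) * √(I (g ^ 2)) := by
  have e1 : ∫ y, |(f * g) y| ∂m = I (|f| * |g|) := by
    unfold I
    refine integral_congr_ae ?_
    filter_upwards [mul_ae f g, mul_ae |f| |g|, AEEqFun.coeFn_abs f, AEEqFun.coeFn_abs g]
      with z h1 h2 h3 h4
    simp only [h1, h2, h3, h4, abs_mul]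
  have a1 : MemLp (|f| : M →ₘ[m] ℝ) 2 m := (memLp_congr_ae (AEEqFun.coeFn_abs f)).2 hf.abs
  have a2 : MemLp (|g| : M →ₘ[m] ℝ) 2 m := (memLp_congr_ae (AEEqFun.coeFn_abs g)).2 hg.abs
  have e2 : (|f| : M →ₘ[m] ℝ) ^ 2 = f ^ 2 := by
    rw [eq_iff_ae]
    filter_upwards [sq_ae f, sq_ae |f|, AEEqFun.coeFn_abs f] with z h1 h2 h3
    rw [h1, h2, h3, sq_abs]
  have e3 : (|g| : M →ₘ[m] ℝ) ^ 2 = g ^ 2 := by
    rw [eq_iff_ae]
    filter_upwards [sq_ae g, sq_ae |g|, AEEqFun.coeFn_abs g] with z h1 h2 h3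
    rw [h1, h2, h3, sq_abs]
  rw [e1]
  refine (le_abs_self _).trans ?_
  have := I_abs_le a1 a2
  rwa [e2, e3] at this

theorem T1.const (hx : MemLp x 1 m) : T1 (fun _ => x) x := by
  refine ⟨fun _ => hx, hx, ?_⟩
  have : ∫ y, |(x - x : M →ₘ[m] ℝ) y| ∂m = 0 := by
    have e : x - x = (0 : ℝ) • x := by simp
    rw [e, intabs_smul]; simp
  simp only [this]
  exact tendsto_const_nhds

theorem T1.add (h1 : T1 X x) (h2 : T1 Y y) : T1 (fun n => X n + Y n) (x + y) := by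
  refine ⟨fun n => mem_add (h1.mem n) (h2.mem n), mem_add h1.mem' h2.mem', ?_⟩
  refine squeeze_zero (fun n => intabs_nonneg _) (fun n => ?_)
    (by simpa using h1.lim.add h2.lim)
  have := intabs_add_le (mem_sub (h1.mem n) h1.mem') (mem_sub (h2.mem n) h2.mem')
  have e : X n - x + (Y n - y) = X n + Y n - (x + y) := by ring
  rwa [e] at this

theorem T1.smul (c : ℝ) (h1 : T1 X x) : T1 (fun n => c • X n) (c • x) := by
  refine ⟨fun n => mem_smul _ (h1.mem n), mem_smul _ h1.mem', ?_⟩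
  have e : ∀ n, ∫ y, |(c • X n - c • x : M →ₘ[m] ℝ) y| ∂m = |c| * ∫ y, |(X n - x) y| ∂m := by
    intro n; rw [← smul_sub, intabs_smul]
  simp only [e]
  simpa using h1.lim.const_mul |c|

theorem T1.neg (h1 : T1 X x) : T1 (fun n => -X n) (-x) := by
  have := h1.smul (-1)
  simpa using this

theorem T1.sub (h1 : T1 X x) (h2 : T1 Y y) : T1 (fun n => X n - Y n) (x - y) := by
  simpa [sub_eq_add_neg] using h1.add h2.neg

theorem T1.I_lim (h : T1 X x) : Tendsto (fun n => I (X n)) atTop (𝓝 (I x)) := by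
  rw [tendsto_iff_dist_tendsto_zero]
  refine squeeze_zero (fun n => dist_nonneg) (fun n => ?_) h.lim
  rw [Real.dist_eq, ← I_sub (h.mem n) h.mem']
  exact abs_I_le _

/-- scalar factors that converge -/
theorem T2.smul_lim {c : ℕ → ℝ} {c' : ℝ} (hc : Tendsto c atTop (𝓝 c')) (h1 : T2 X x) :
    T2 (fun n => c n • X n) (c' • x) := by
  refine ⟨fun n => mem_smul _ (h1.mem n), mem_smul _ h1.mem', ?_⟩
  have l1 : Tendsto (fun n => 2 * (c n ^ 2 * I ((X n - x) ^ 2)) + 2 * ((c n - c') ^ 2 * I (x ^ 2)))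
      atTop (𝓝 0) := by
    have := (((hc.pow 2).mul h1.lim).const_mul 2).add
      ((((hc.sub_const c').pow 2).mul_const (I (x ^ 2))).const_mul 2)
    simpa using this
  refine squeeze_zero (fun n => I_sq_nonneg _) (fun n => ?_) l1
  have a1 := mem_smul (c n) (mem_sub (h1.mem n) h1.mem')
  have a2 := mem_smul (c n - c') h1.mem'
  have := I_sq_add_le a1 a2
  have e : c n • (X n - x) + (c n - c') • x = c n • X n - c' • x := by
    rw [smul_sub, sub_smul]; abel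
  have e1 : (c n • (X n - x)) ^ 2 = (c n ^ 2) • (X n - x) ^ 2 := by rw [smul_pow]
  have e2 : ((c n - c') • x) ^ 2 = ((c n - c') ^ 2) • x ^ 2 := by rw [smul_pow]
  rw [e, e1, e2, I_smul, I_smul] at this
  exact this

theorem T1.smul_lim {c : ℕ → ℝ} {c' : ℝ} (hc : Tendsto c atTop (𝓝 c')) (h1 : T1 X x) :
    T1 (fun n => c n • X n) (c' • x) := by
  refine ⟨fun n => mem_smul _ (h1.mem n), mem_smul _ h1.mem', ?_⟩
  have l1 : Tendsto (fun n => |c n| * ∫ y, |(X n - x) y| ∂m + |c n - c'| * ∫ y, |x y| ∂m)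
      atTop (𝓝 0) := by
    have := ((hc.abs).mul h1.lim).add (((hc.sub_const c').abs).mul_const (∫ y, |x y| ∂m))
    simpa using this
  refine squeeze_zero (fun n => intabs_nonneg _) (fun n => ?_) l1
  have a1 := mem_smul (c n) (mem_sub (h1.mem n) h1.mem')
  have a2 := mem_smul (c n - c') h1.mem'
  have := intabs_add_le a1 a2
  have e : c n • (X n - x) + (c n - c') • x = c n • X n - c' • x := by
    rw [smul_sub, sub_smul]; abel
  rw [e, intabs_smul, intabs_smul] at this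
  exact this

/-- `L^2` times `L^2` -/
theorem T2.mul (h1 : T2 X x) (h2 : T2 Y y) : T1 (fun n => X n * Y n) (x * y) := by
  refine ⟨fun n => mem_mul_22 (h1.mem n) (h2.mem n), mem_mul_22 h1.mem' h2.mem', ?_⟩
  have l1 := (Real.continuous_sqrt.tendsto 0).comp h1.lim
  have l2 := (Real.continuous_sqrt.tendsto 0).comp h2.lim
  simp only [Real.sqrt_zero, Function.comp_def] at l1 l2
  have hlim : Tendsto (fun n => √(I ((X n - x) ^ 2)) * √(I ((Y n - y) ^ 2))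
      + √(I ((X n - x) ^ 2)) * √(I (y ^ 2)) + √(I (x ^ 2)) * √(I ((Y n - y) ^ 2))) atTop (𝓝 0) := by
    have := ((l1.mul l2).add (l1.mul_const (√(I (y ^ 2))))).add (l2.const_mul (√(I (x ^ 2))))
    simpa using this
  refine squeeze_zero (fun n => intabs_nonneg _) (fun n => ?_) hlim
  have a1 := mem_sub (h1.mem n) h1.mem'
  have a2 := mem_sub (h2.mem n) h2.mem'
  have e : X n * Y n - x * y = (X n - x) * (Y n - y) + (X n - x) * y + x * (Y n - y) := by ring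
  rw [e]
  refine (intabs_add_le (mem_add (mem_mul_22 a1 a2) (mem_mul_22 a1 h2.mem'))
    (mem_mul_22 h1.mem' a2)).trans (add_le_add ((intabs_add_le (mem_mul_22 a1 a2)
    (mem_mul_22 a1 h2.mem')).trans (add_le_add ?_ ?_)) ?_)
  · exact intabs_mul_le a1 a2
  · exact intabs_mul_le a1 h2.mem'
  · exact intabs_mul_le h1.mem' a2

/-- bounded multipliers in `L^1` -/
theorem Tb.mul1 (h1 : Tb X x) (h2 : T1 Y y) : T1 (fun n => X n * Y n) (x * y) := by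
  refine ⟨fun n => mem_mul_top (h1.mem n) (h2.mem n), mem_mul_top h1.mem' h2.mem', ?_⟩
  obtain ⟨K, hK⟩ := h1.bd
  have hx := h1.bd' hK
  have l1 : Tendsto (fun n => ∫ z, |((X n - x) * y : M →ₘ[m] ℝ) z| ∂m) atTop (𝓝 0) := by
    have h0 : (0 : ℝ) = ∫ z, (fun _ => (0 : ℝ)) z ∂m := by simp
    rw [h0]
    refine tendsto_integral_of_dominated_convergence (fun z => (2 * |K|) * |y z|)
      (fun n => ((X n - x) * y : M →ₘ[m] ℝ).aestronglyMeasurable.norm)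
      ((int_of_mem h2.mem').abs.const_mul _) (fun n => ?_) ?_
    · filter_upwards [mul_ae (X n - x) y, sub_ae (X n) x, hK n, hx] with z b1 b2 b3 b4
      rw [b1, b2, abs_mul, Real.norm_eq_abs, abs_of_nonneg (by positivity)]
      have : |X n z - x z| ≤ 2 * |K| := (abs_sub _ _).trans (by linarith [le_abs_self K])
      exact mul_le_mul_of_nonneg_right this (abs_nonneg _)
    · filter_upwards [ae_all_iff.2 fun n => mul_ae (X n - x) y, ae_all_iff.2 fun n => sub_ae (X n) x,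
        h1.lim] with z b1 b2 b3
      simp only [b1, b2]
      have := (((b3.sub_const (x z))).mul_const (y z)).abs
      simpa using this
  refine squeeze_zero (fun n => intabs_nonneg _) (fun n => ?_)
    (by simpa using (h2.lim.const_mul |K|).add l1)
  have a2 := mem_sub (h2.mem n) h2.mem'
  have m1 : MemLp (X n * (Y n - y) : M →ₘ[m] ℝ) 1 m := mem_mul_top (h1.mem n) a2
  have m2 : MemLp ((X n - x) * y : M →ₘ[m] ℝ) 1 m :=
    mem_mul_top (mem_sub (h1.mem n) h1.mem') h2.mem'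
  have h3 := intabs_add_le m1 m2
  have e1 : X n * (Y n - y) + (X n - x) * y = X n * Y n - x * y := by ring
  rw [e1] at h3
  refine h3.trans (add_le_add ?_ le_rfl)
  rw [← integral_const_mul]
  refine integral_mono_ae (int_of_mem m1).abs ((int_of_mem a2).abs.const_mul _) ?_
  filter_upwards [mul_ae (X n) (Y n - y), hK n] with z b1 b5
  simp only [b1, abs_mul]
  exact mul_le_mul_of_nonneg_right (b5.trans (le_abs_self _)) (abs_nonneg _)

/-! ### bounded convergence along subsequences -/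

/-- bounded convergence: uniformly bounded, and every subsequence has a subsequence that
converges almost everywhere -/
structure Tm (X : ℕ → M →ₘ[m] ℝ) (x : M →ₘ[m] ℝ) : Prop where
  bd : ∃ K : ℝ, ∀ n, ∀ᵐ y ∂m, |X n y| ≤ K
  sub : ∀ ns : ℕ → ℕ, Tendsto ns atTop atTop → ∃ ms : ℕ → ℕ,
    Tendsto ms atTop atTop ∧ ∀ᵐ y ∂m, Tendsto (fun n => X (ns (ms n)) y) atTop (𝓝 (x y))

theorem Tb.tm (h : Tb X x) : Tm X x :=
  ⟨h.bd, fun ns hns => ⟨fun n => n, tendsto_id, by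
    filter_upwards [h.lim] with y hy
    exact hy.comp hns⟩⟩

theorem Tm.const (hx : MemLp x ∞ m) : Tm (fun _ => x) x := (Tb.const hx).tm

theorem Tm.bd' (h : Tm X x) {K : ℝ} (hK : ∀ n, ∀ᵐ y ∂m, |X n y| ≤ K) : ∀ᵐ y ∂m, |x y| ≤ K := by
  obtain ⟨ms, h1, h2⟩ := h.sub (fun n => n) tendsto_id
  filter_upwards [h2, ae_all_iff.2 hK] with y h3 h4
  exact le_of_tendsto' h3.abs fun n => h4 _

theorem Tm.mem (h : Tm X x) (n : ℕ) : MemLp (X n) ∞ m := by
  obtain ⟨K, hK⟩ := h.bd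
  exact mem_top_iff.2 ⟨K, hK n⟩

theorem Tm.mem' (h : Tm X x) : MemLp x ∞ m := by
  obtain ⟨K, hK⟩ := h.bd
  exact mem_top_iff.2 ⟨K, h.bd' hK⟩

theorem Tm.subseq (h : Tm X x) {ns : ℕ → ℕ} (hns : Tendsto ns atTop atTop) :
    ∃ ms : ℕ → ℕ, Tendsto ms atTop atTop ∧ Tb (fun n => X (ns (ms n))) x := by
  obtain ⟨ms, h1, h2⟩ := h.sub ns hns
  obtain ⟨K, hK⟩ := h.bd
  exact ⟨ms, h1, ⟨K, fun n => hK _⟩, h2⟩

/-- reduction of `L²` convergence to subsequences -/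
theorem T2.of_sub (hm : ∀ n, MemLp (X n) 2 m) (h : ∀ ns : ℕ → ℕ, Tendsto ns atTop atTop →
    ∃ ms : ℕ → ℕ, Tendsto ms atTop atTop ∧ T2 (fun n => X (ns (ms n))) x) : T2 X x := by
  obtain ⟨_, _, h0⟩ := h (fun n => n) tendsto_id
  refine ⟨hm, h0.mem', tendsto_of_subseq_tendsto fun ns hns => ?_⟩
  obtain ⟨ms, _, h2⟩ := h ns hns
  exact ⟨ms, h2.lim⟩

theorem T1.of_sub (hm : ∀ n, MemLp (X n) 1 m) (h : ∀ ns : ℕ → ℕ, Tendsto ns atTop atTop →
    ∃ ms : ℕ → ℕ, Tendsto ms atTop atTop ∧ T1 (fun n => X (ns (ms n))) x) : T1 X x := by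
  obtain ⟨_, _, h0⟩ := h (fun n => n) tendsto_id
  refine ⟨hm, h0.mem', tendsto_of_subseq_tendsto fun ns hns => ?_⟩
  obtain ⟨ms, _, h2⟩ := h ns hns
  exact ⟨ms, h2.lim⟩

theorem T2.comp (h : T2 X x) {ns : ℕ → ℕ} (hns : Tendsto ns atTop atTop) :
    T2 (fun n => X (ns n)) x := ⟨fun n => h.mem _, h.mem', h.lim.comp hns⟩

theorem T1.comp (h : T1 X x) {ns : ℕ → ℕ} (hns : Tendsto ns atTop atTop) :
    T1 (fun n => X (ns n)) x := ⟨fun n => h.mem _, h.mem', h.lim.comp hns⟩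

theorem Tm.comp (h : Tm X x) {ns : ℕ → ℕ} (hns : Tendsto ns atTop atTop) :
    Tm (fun n => X (ns n)) x := by
  obtain ⟨K, hK⟩ := h.bd
  exact ⟨⟨K, fun n => hK _⟩, fun k hk => h.sub (fun n => ns (k n)) (hns.comp hk)⟩

/-- bounded multipliers of `L²` convergence -/
theorem Tm.mul (h1 : Tm X x) (h2 : T2 Y y) : T2 (fun n => X n * Y n) (x * y) := by
  refine T2.of_sub (fun n => mem_mul_top (h1.mem n) (h2.mem n)) fun ns hns => ?_
  obtain ⟨ms, h3, h4⟩ := h1.subseq hns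
  exact ⟨ms, h3, h4.mul (h2.comp (hns.comp h3))⟩

/-- bounded multipliers of `L¹` convergence -/
theorem Tm.mul1 (h1 : Tm X x) (h2 : T1 Y y) : T1 (fun n => X n * Y n) (x * y) := by
  refine T1.of_sub (fun n => mem_mul_top (h1.mem n) (h2.mem n)) fun ns hns => ?_
  obtain ⟨ms, h3, h4⟩ := h1.subseq hns
  exact ⟨ms, h3, h4.mul1 (h2.comp (hns.comp h3))⟩

/-- two bounded sequences that converge jointly -/
theorem Tm.map2 (h1 : Tm X x) (h2 : Tm Y y) {Z : ℕ → M →ₘ[m] ℝ} {z : M →ₘ[m] ℝ} (F : ℝ → ℝ → ℝ)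
    (hF : Continuous (Function.uncurry F)) (hZ : ∀ n, ∀ᵐ q ∂m, Z n q = F (X n q) (Y n q))
    (hz : ∀ᵐ q ∂m, z q = F (x q) (y q)) : Tm Z z := by
  obtain ⟨K, hK⟩ := h1.bd
  obtain ⟨L, hL⟩ := h2.bd
  have hc : IsCompact (Set.Icc (-K) K ×ˢ Set.Icc (-L) L) := isCompact_Icc.prod isCompact_Icc
  obtain ⟨B, hB⟩ := (hc.image_of_continuousOn hF.abs.continuousOn).bddAbove
  refine ⟨⟨B, fun n => ?_⟩, fun ns hns => ?_⟩
  · filter_upwards [hZ n, hK n, hL n] with q e1 e2 e3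
    rw [e1]
    exact hB ⟨(X n q, Y n q), ⟨abs_le.1 e2, abs_le.1 e3⟩, rfl⟩
  · obtain ⟨ms, a1, a2⟩ := h1.sub ns hns
    obtain ⟨ks, b1, b2⟩ := h2.sub (fun n => ns (ms n)) (hns.comp a1)
    refine ⟨fun n => ms (ks n), a1.comp b1, ?_⟩
    filter_upwards [a2, b2, ae_all_iff.2 hZ, hz] with q e1 e2 e3 e4
    simp only [e3]
    rw [e4]
    have := (hF.tendsto (x q, y q)).comp ((e1.comp b1).prodMk_nhds e2)
    simpa [Function.comp_def, Function.uncurry] using this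

theorem Tm.map {Z : ℕ → M →ₘ[m] ℝ} {z : M →ₘ[m] ℝ} (h1 : Tm X x) (F : ℝ → ℝ) (hF : Continuous F)
    (hZ : ∀ n, ∀ᵐ q ∂m, Z n q = F (X n q)) (hz : ∀ᵐ q ∂m, z q = F (x q)) : Tm Z z :=
  h1.map2 h1 (fun a _ => F a) (hF.comp continuous_fst) hZ hz

/-- composition with a function that is continuous on a compact interval containing the values -/
theorem Tm.map_on {Z : ℕ → M →ₘ[m] ℝ} {z : M →ₘ[m] ℝ} (h1 : Tm X x) (F : ℝ → ℝ) {a b : ℝ}
    (hab : a ≤ b) (hF : ContinuousOn F (Set.Icc a b))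
    (hX : ∀ n, ∀ᵐ q ∂m, a ≤ X n q ∧ X n q ≤ b)
    (hZ : ∀ n, ∀ᵐ q ∂m, Z n q = F (X n q)) (hz : ∀ᵐ q ∂m, z q = F (x q)) : Tm Z z := by
  have hx : ∀ᵐ q ∂m, a ≤ x q ∧ x q ≤ b := by
    obtain ⟨ms, h3, h4⟩ := h1.sub (fun n => n) tendsto_id
    filter_upwards [h4, ae_all_iff.2 hX] with q e1 e2
    exact ⟨ge_of_tendsto' e1 fun n => (e2 _).1, le_of_tendsto' e1 fun n => (e2 _).2⟩
  have hp : ∀ q : ℝ, q ∈ Set.Icc a b → (Set.projIcc a b hab q : ℝ) = q := fun q hq => by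
    rw [Set.projIcc_of_mem hab hq]
  refine h1.map (fun q => F (Set.projIcc a b hab q)) ?_ (fun n => ?_) ?_
  · exact (continuousOn_iff_continuous_restrict.1 hF).comp continuous_projIcc
  · filter_upwards [hZ n, hX n] with q e1 e2
    rw [e1, hp _ e2]
  · filter_upwards [hz, hx] with q e1 e2
    rw [e1, hp _ e2]

theorem Tm.add (h1 : Tm X x) (h2 : Tm Y y) : Tm (fun n => X n + Y n) (x + y) :=
  h1.map2 h2 (fun a b => a + b) (continuous_fst.add continuous_snd) (fun n => add_ae _ _)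
    (add_ae _ _)

theorem Tm.sub' (h1 : Tm X x) (h2 : Tm Y y) : Tm (fun n => X n - Y n) (x - y) :=
  h1.map2 h2 (fun a b => a - b) (continuous_fst.sub continuous_snd) (fun n => sub_ae _ _)
    (sub_ae _ _)

theorem Tm.mulb (h1 : Tm X x) (h2 : Tm Y y) : Tm (fun n => X n * Y n) (x * y) :=
  h1.map2 h2 (fun a b => a * b) (continuous_fst.mul continuous_snd) (fun n => mul_ae _ _)
    (mul_ae _ _)

theorem Tm.smul (c : ℝ) (h1 : Tm X x) : Tm (fun n => c • X n) (c • x) :=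
  h1.map (fun a => c * a) (continuous_const.mul continuous_id) (fun n => smul_ae _ _)
    (smul_ae _ _)

theorem Tm.neg (h1 : Tm X x) : Tm (fun n => -X n) (-x) :=
  h1.map (fun a => -a) continuous_neg (fun n => neg_ae _) (neg_ae _)

/-- bounded sequences whose differences tend to `0` in `L²` -/
theorem Tm.of_L2 (hb : ∃ K : ℝ, ∀ n, ∀ᵐ y ∂m, |X n y| ≤ K)
    (hm : ∀ n, MemLp (X n - x : M →ₘ[m] ℝ) 2 m)
    (h : Tendsto (fun n => I ((X n - x) ^ 2)) atTop (𝓝 0)) : Tm X x := by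
  refine ⟨hb, fun ns hns => ?_⟩
  have h1 : Tendsto (fun n => I (((X (ns n) - x) - 0) ^ 2)) atTop (𝓝 0) := by
    simpa [Function.comp_def] using h.comp hns
  obtain ⟨ms, a1, a2⟩ := exists_subseq_of_I_sq (u := fun n => X (ns n) - x) (f := 0)
    (fun n => hm _) mem_zero h1
  refine ⟨ms, a1.tendsto_atTop, ?_⟩
  filter_upwards [a2, ae_all_iff.2 fun n => sub_ae (X n) x, zero_ae (M := M) (m := m)]
    with y e1 e2 e3
  rw [e3] at e1
  have := e1.add_const (x y)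
  simp only [e2, sub_add_cancel, zero_add] at this
  exact this

theorem T2.tm (h : T2 X x) (hb : ∃ K : ℝ, ∀ n, ∀ᵐ y ∂m, |X n y| ≤ K) : Tm X x :=
  Tm.of_L2 hb (fun n => mem_sub (h.mem n) h.mem') h.lim

/-- bounded sequences of nonnegative functions whose integrals tend to `0` -/
theorem Tm.of_I (hb : ∃ K : ℝ, ∀ n, ∀ᵐ y ∂m, X n y ≤ K) (h0 : ∀ n, 0 ≤ X n)
    (hm : ∀ n, MemLp (X n) 1 m) (h : Tendsto (fun n => I (X n)) atTop (𝓝 0)) :
    Tm X 0 := by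
  obtain ⟨K, hK⟩ := hb
  refine ⟨⟨K, fun n => ?_⟩, fun ns hns => ?_⟩
  · filter_upwards [hK n, nonneg_iff_ae.1 (h0 n)] with y e1 e2
    rwa [abs_of_nonneg e2]
  · obtain ⟨ms, a1, a2⟩ := exists_subseq_of_I (g := fun n => X (ns n)) (fun n => hm _)
      (fun n => h0 _) (h.comp hns)
    refine ⟨ms, a1.tendsto_atTop, ?_⟩
    filter_upwards [a2, zero_ae (M := M) (m := m)] with y e1 e2
    rwa [e2]

/-- domination: `|Z n| ≤ Y n * |W n|`-type estimates are replaced by squares -/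
theorem T2.zero_of_le {Z : ℕ → M →ₘ[m] ℝ} (hm : ∀ n, MemLp (Z n) 2 m) (h2 : T2 Y 0)
    (h : ∀ n, ∀ᵐ y ∂m, |Z n y| ≤ |Y n y|) : T2 Z 0 := by
  refine ⟨hm, mem_zero, ?_⟩
  refine squeeze_zero (fun n => I_sq_nonneg _) (fun n => ?_) h2.lim
  rw [sub_zero, sub_zero]
  refine I_mono (mem_sq (hm n)) (mem_sq (h2.mem n)) ?_
  rw [le_iff_ae]
  filter_upwards [sq_ae (Z n), sq_ae (Y n), h n] with y e1 e2 e3
  rw [e1, e2]
  exact sq_le_sq.2 e3

theorem T1.zero_of_le {Z : ℕ → M →ₘ[m] ℝ} (hm : ∀ n, MemLp (Z n) 1 m) (h2 : T1 Y 0)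
    (h : ∀ n, ∀ᵐ y ∂m, |Z n y| ≤ |Y n y|) : T1 Z 0 := by
  refine ⟨hm, mem_zero, ?_⟩
  refine squeeze_zero (fun n => intabs_nonneg _) (fun n => ?_) h2.lim
  rw [sub_zero, sub_zero]
  exact integral_mono_ae (int_of_mem (hm n)).abs (int_of_mem (h2.mem n)).abs (h n)

theorem T2.sub_zero_iff : T2 (fun n => X n - x) 0 ↔
    (∀ n, MemLp (X n - x : M →ₘ[m] ℝ) 2 m) ∧ Tendsto (fun n => I ((X n - x) ^ 2)) atTop (𝓝 0) :=
  ⟨fun h => ⟨h.mem, by simpa using h.lim⟩, fun h => ⟨h.1, mem_zero, by simpa using h.2⟩⟩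

end basic

namespace IsDir

variable (hC : IsDir C)
include hC
variable {X Y : ℕ → M →ₘ[m] ℝ} {x y : M →ₘ[m] ℝ}

theorem TW_add (h1 : C.TW X x) (h2 : C.TW Y y) : C.TW (fun n => X n + Y n) (x + y) := by
  refine ⟨fun n => hC.add_mem _ (h1.mem n) _ (h2.mem n), hC.add_mem _ h1.mem' _ h2.mem', ?_⟩
  refine squeeze_zero (fun n => hC.nrm2_nonneg (hC.sub_mem (hC.add_mem _ (h1.mem n) _ (h2.mem n))
    (hC.add_mem _ h1.mem' _ h2.mem'))) (fun n => ?_)
    (by simpa using (h1.lim.const_mul 2).add (h2.lim.const_mul 2))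
  have := hC.nrm2_add_le (hC.sub_mem (h1.mem n) h1.mem') (hC.sub_mem (h2.mem n) h2.mem')
  have e : X n - x + (Y n - y) = X n + Y n - (x + y) := by ring
  rwa [e] at this

theorem nrm2_smul (c : ℝ) (hx : x ∈ C.W) : C.nrm2 (c • x) = c ^ 2 * C.nrm2 x := by
  unfold Calc.nrm2
  rw [hC.E_smul c hx, smul_pow, I_smul]
  ring

theorem TW_smul_lim {c : ℕ → ℝ} {c' : ℝ} (hc : Tendsto c atTop (𝓝 c')) (h1 : C.TW X x) :
    C.TW (fun n => c n • X n) (c' • x) := by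
  refine ⟨fun n => hC.smul_mem _ _ (h1.mem n), hC.smul_mem _ _ h1.mem', ?_⟩
  have l1 : Tendsto (fun n => 2 * (c n ^ 2 * C.nrm2 (X n - x)) + 2 * ((c n - c') ^ 2 * C.nrm2 x))
      atTop (𝓝 0) := by
    have := (((hc.pow 2).mul h1.lim).const_mul 2).add
      ((((hc.sub_const c').pow 2).mul_const (C.nrm2 x)).const_mul 2)
    simpa using this
  refine squeeze_zero (fun n => hC.nrm2_nonneg (hC.sub_mem (hC.smul_mem _ _ (h1.mem n))
    (hC.smul_mem _ _ h1.mem'))) (fun n => ?_) l1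
  have a0 := hC.sub_mem (h1.mem n) h1.mem'
  have := hC.nrm2_add_le (hC.smul_mem (c n) _ a0) (hC.smul_mem (c n - c') _ h1.mem')
  have e : c n • (X n - x) + (c n - c') • x = c n • X n - c' • x := by
    rw [smul_sub, sub_smul]; abel
  rw [e, hC.nrm2_smul _ a0, hC.nrm2_smul _ h1.mem'] at this
  exact this

theorem TW_smul (c : ℝ) (h1 : C.TW X x) : C.TW (fun n => c • X n) (c • x) :=
  hC.TW_smul_lim tendsto_const_nhds h1

theorem TW_neg (h1 : C.TW X x) : C.TW (fun n => -X n) (-x) := by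
  have := hC.TW_smul (-1) h1
  simpa using this

theorem TW_sub (h1 : C.TW X x) (h2 : C.TW Y y) : C.TW (fun n => X n - Y n) (x - y) := by
  simpa [sub_eq_add_neg] using hC.TW_add h1 (hC.TW_neg h2)

omit hC in
theorem TW_comp (h : C.TW X x) {ns : ℕ → ℕ} (hns : Tendsto ns atTop atTop) :
    C.TW (fun n => X (ns n)) x := ⟨fun n => h.mem _, h.mem', h.lim.comp hns⟩

omit hC in
theorem TW_of_sub (hm : ∀ n, X n ∈ C.W) (h : ∀ ns : ℕ → ℕ, Tendsto ns atTop atTop →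
    ∃ ms : ℕ → ℕ, Tendsto ms atTop atTop ∧ C.TW (fun n => X (ns (ms n))) x) : C.TW X x := by
  obtain ⟨_, _, h0⟩ := h (fun n => n) tendsto_id
  refine ⟨hm, h0.mem', tendsto_of_subseq_tendsto fun ns hns => ?_⟩
  obtain ⟨ms, _, h2⟩ := h ns hns
  exact ⟨ms, h2.lim⟩

/-- `Γ` is continuous from `W × W` to `L¹` -/
theorem TW_Γ1 (h1 : C.TW X x) (h2 : C.TW Y y) : T1 (fun n => C.Γ (X n) (Y n)) (C.Γ x y) := by
  refine ⟨fun n => hC.Γ_mem1 (h1.mem n) (h2.mem n), hC.Γ_mem1 h1.mem' h2.mem', ?_⟩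
  have l1 := (Real.continuous_sqrt.tendsto 0).comp (hC.TW_E h1)
  have l2 := (Real.continuous_sqrt.tendsto 0).comp (hC.TW_E h2)
  simp only [Real.sqrt_zero, Function.comp_def] at l1 l2
  have hlim : Tendsto (fun n => √(I (C.Γ (X n - x) (X n - x))) * √(I (C.Γ (Y n - y) (Y n - y)))
      + √(I (C.Γ (X n - x) (X n - x))) * √(I (C.Γ y y))
      + √(I (C.Γ x x)) * √(I (C.Γ (Y n - y) (Y n - y)))) atTop (𝓝 0) := by
    have := ((l1.mul l2).add (l1.mul_const (√(I (C.Γ y y))))).add (l2.const_mul (√(I (C.Γ x x))))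
    simpa using this
  refine squeeze_zero (fun n => intabs_nonneg _) (fun n => ?_) hlim
  have p1 := hC.sub_mem (h1.mem n) h1.mem'
  have p2 := hC.sub_mem (h2.mem n) h2.mem'
  have e : C.Γ (X n) (Y n) - C.Γ x y = C.Γ (X n - x) (Y n - y) + C.Γ (X n - x) y
      + C.Γ x (Y n - y) := by
    rw [hC.Γ_sub_left (h1.mem n) h1.mem' p2, hC.Γ_sub_left (h1.mem n) h1.mem' h2.mem',
      hC.Γ_sub_right (h1.mem n) (h2.mem n) h2.mem', hC.Γ_sub_right h1.mem' (h2.mem n) h2.mem']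
    ring
  rw [e]
  refine (intabs_add_le (mem_add (hC.Γ_mem1 p1 p2) (hC.Γ_mem1 p1 h2.mem'))
    (hC.Γ_mem1 h1.mem' p2)).trans (add_le_add ((intabs_add_le (hC.Γ_mem1 p1 p2)
    (hC.Γ_mem1 p1 h2.mem')).trans (add_le_add ?_ ?_)) ?_)
  · exact hC.int_abs_Γ_le p1 p2
  · exact hC.int_abs_Γ_le p1 h2.mem'
  · exact hC.int_abs_Γ_le h1.mem' p2

/-- the triangle inequality for the gradient, in the form `Γ(f-g) ≤ 2Γ(f)+2Γ(g)` -/
theorem Γ_sub_le {f g : M →ₘ[m] ℝ} (hf : f ∈ C.W) (hg : g ∈ C.W) :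
    ∀ᵐ z ∂m, C.Γ (f - g) (f - g) z ≤ 2 * C.Γ f f z + 2 * C.Γ g g z := by
  have h1 := hC.Γ_expand_ae (1 : ℝ) hf hg
  have e : C.Γ (f - g) (f - g) = C.Γ f f + (-2 : ℝ) • C.Γ f g + C.Γ g g := by
    have h := hC.Γ_expand (-1 : ℝ) hf hg
    have e1 : f + (-1 : ℝ) • g = f - g := by rw [neg_one_smul, sub_eq_add_neg]
    rw [e1] at h
    rw [h]
    norm_num
  rw [e]
  filter_upwards [h1, add_ae (C.Γ f f + (-2 : ℝ) • C.Γ f g) (C.Γ g g),
    add_ae (C.Γ f f) ((-2 : ℝ) • C.Γ f g), smul_ae (C.Γ f g) (-2 : ℝ)] with z a1 a2 a3 a4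
  rw [a2, a3, a4]
  linarith

/-- bounded gradients: `Γ(X_n - x)` tends to `0` boundedly -/
theorem TW_tm (h1 : C.TW X x) (hb : ∃ K : ℝ, ∀ n, ∀ᵐ z ∂m, C.Γ (X n) (X n) z ≤ K) :
    (∃ K : ℝ, ∀ᵐ z ∂m, C.Γ x x z ≤ K) ∧ Tm (fun n => C.Γ (X n - x) (X n - x)) 0 := by
  obtain ⟨K, hK⟩ := hb
  have h0 := hC.TW_Γ1 h1 h1
  have hx : ∀ᵐ z ∂m, C.Γ x x z ≤ K := by
    obtain ⟨ns, a1, a2⟩ := exists_subseq_of_I (g := fun n => |C.Γ (X n) (X n) - C.Γ x x|)
      (fun n => (memLp_congr_ae (AEEqFun.coeFn_abs _)).2 (mem_sub (h0.mem n) h0.mem').abs)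
      (fun n => by
        rw [nonneg_iff_ae]
        filter_upwards [AEEqFun.coeFn_abs (C.Γ (X n) (X n) - C.Γ x x)] with z e
        rw [e]; exact abs_nonneg _)
      (by
        refine h0.lim.congr fun n => ?_
        refine integral_congr_ae ?_
        filter_upwards [AEEqFun.coeFn_abs (C.Γ (X n) (X n) - C.Γ x x)] with z e
        rw [e])
    filter_upwards [a2, ae_all_iff.2 fun n => AEEqFun.coeFn_abs (C.Γ (X n) (X n) - C.Γ x x),
      ae_all_iff.2 fun n => sub_ae (C.Γ (X n) (X n)) (C.Γ x x), ae_all_iff.2 hK] with z e1 e2 e3 e4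
    simp only [e2, e3] at e1
    have e5 : Tendsto (fun n => C.Γ (X (ns n)) (X (ns n)) z) atTop (𝓝 (C.Γ x x z)) := by
      have := (tendsto_zero_iff_abs_tendsto_zero _).2 e1
      simpa using this.add_const (C.Γ x x z)
    exact le_of_tendsto' e5 fun n => e4 _
  refine ⟨⟨K, hx⟩, Tm.of_I ⟨2 * K + 2 * K, fun n => ?_⟩ (fun n => hC.nonneg _
    (hC.sub_mem (h1.mem n) h1.mem')) (fun n => hC.mem1 _ (hC.sub_mem (h1.mem n) h1.mem'))
    (hC.TW_E h1)⟩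
  filter_upwards [hC.Γ_sub_le (h1.mem n) h1.mem', hK n, hx] with z e1 e2 e3
  linarith

/-- `Γ` is continuous from (`W`, bounded gradients) `× W` to `L²` -/
theorem TW_Γ2 (h1 : C.TW X x) (hb : ∃ K : ℝ, ∀ n, ∀ᵐ z ∂m, C.Γ (X n) (X n) z ≤ K)
    (h2 : C.TW Y y) : T2 (fun n => C.Γ (X n) (Y n)) (C.Γ x y) := by
  obtain ⟨⟨K', hK'⟩, h3⟩ := hC.TW_tm h1 hb
  obtain ⟨K, hK⟩ := hb
  have top : ∀ n, MemLp (C.Γ (X n) (X n)) ∞ m := fun n => mem_top_iff.2 ⟨K, by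
    filter_upwards [hK n, hC.Γ_nonneg_ae (h1.mem n)] with z e1 e2
    rwa [abs_of_nonneg e2]⟩
  have top' : MemLp (C.Γ x x) ∞ m := mem_top_iff.2 ⟨K', by
    filter_upwards [hK', hC.Γ_nonneg_ae h1.mem'] with z e1 e2
    rwa [abs_of_nonneg e2]⟩
  have m1 := fun n => hC.Γ_mem2 (h1.mem n) (top n) (h2.mem n)
  have dX := fun n => hC.sub_mem (h1.mem n) h1.mem'
  have dY := fun n => hC.sub_mem (h2.mem n) h2.mem'
  have n1 := fun n => hC.Γ_mem2 (h1.mem n) (top n) (dY n)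
  have n2 : ∀ n, MemLp (C.Γ (X n - x) y) 2 m := fun n => hC.Γ_mem2 (dX n) (h3.mem n) h2.mem'
  refine ⟨m1, hC.Γ_mem2 h1.mem' top' h2.mem', ?_⟩
  have t1 : Tendsto (fun n => |K| * I (C.Γ (Y n - y) (Y n - y))) atTop (𝓝 0) := by
    simpa using (hC.TW_E h2).const_mul |K|
  have t2 : Tendsto (fun n => I (C.Γ (X n - x) (X n - x) * C.Γ y y)) atTop (𝓝 0) := by
    have := (h3.mul1 (T1.const (hC.mem1 _ h2.mem'))).I_lim
    rwa [zero_mul, I_zero] at this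
  refine squeeze_zero (fun n => I_sq_nonneg _) (fun n => ?_)
    (by simpa using (t1.const_mul 2).add (t2.const_mul 2))
  have e : C.Γ (X n) (Y n) - C.Γ x y = C.Γ (X n) (Y n - y) + C.Γ (X n - x) y := by
    rw [hC.Γ_sub_right (h1.mem n) (h2.mem n) h2.mem', hC.Γ_sub_left (h1.mem n) h1.mem' h2.mem']
    ring
  rw [e]
  have q1 := I_sq_add_le (n1 n) (n2 n)
  have q2 : I (C.Γ (X n) (Y n - y) ^ 2) ≤ |K| * I (C.Γ (Y n - y) (Y n - y)) := by
    rw [← I_smul]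
    refine I_mono (mem_sq (n1 n)) (mem_smul _ (hC.mem1 _ (dY n))) ?_
    rw [le_iff_ae]
    filter_upwards [sq_ae (C.Γ (X n) (Y n - y)), smul_ae (C.Γ (Y n - y) (Y n - y)) |K|,
      hC.Γ_cs_ae (h1.mem n) (dY n), hK n, hC.Γ_nonneg_ae (dY n)] with z b1 b2 b3 b4 b5
    rw [b1, b2]
    exact b3.trans (mul_le_mul_of_nonneg_right (b4.trans (le_abs_self _)) b5)
  have q3 : I (C.Γ (X n - x) y ^ 2) ≤ I (C.Γ (X n - x) (X n - x) * C.Γ y y) := by
    refine I_mono (mem_sq (n2 n)) (mem_mul_top (h3.mem n) (hC.mem1 _ h2.mem')) ?_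
    rw [le_iff_ae]
    filter_upwards [sq_ae (C.Γ (X n - x) y), mul_ae (C.Γ (X n - x) (X n - x)) (C.Γ y y),
      hC.Γ_cs_ae (dX n) h2.mem'] with z b1 b2 b3
    rw [b1, b2]; exact b3
  linarith

/-- both gradients bounded: bounded convergence of `Γ` -/
theorem TW_Γm (h1 : C.TW X x) (hb : ∃ K : ℝ, ∀ n, ∀ᵐ z ∂m, C.Γ (X n) (X n) z ≤ K)
    (h2 : C.TW Y y) (hb2 : ∃ K : ℝ, ∀ n, ∀ᵐ z ∂m, C.Γ (Y n) (Y n) z ≤ K) :
    Tm (fun n => C.Γ (X n) (Y n)) (C.Γ x y) := by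
  refine (hC.TW_Γ2 h1 hb h2).tm ?_
  obtain ⟨K, hK⟩ := hb
  obtain ⟨L, hL⟩ := hb2
  refine ⟨√|K| * √|L|, fun n => ?_⟩
  filter_upwards [hC.Γ_abs_ae (h1.mem n) (h2.mem n), hK n, hL n] with z e1 e2 e3
  refine e1.trans (mul_le_mul (Real.sqrt_le_sqrt (e2.trans (le_abs_self _)))
    (Real.sqrt_le_sqrt (e3.trans (le_abs_self _))) (Real.sqrt_nonneg _) (Real.sqrt_nonneg _))

end IsDir

end Vale.Agent.P233
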